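import Vale.Agent.P309.Tube

namespace Vale.Agent.P309

open MeasureTheory ProbabilityTheory Metric
open scoped RealInnerProductSpace ENNReal NNReal

variable {d k : ℕ}

/-- the labels of the rows -/
noncomputable def lab (X : Fin k → E d) (s : E d) : Fin k → ℝ := fun l => ⟪X l, s⟫

@[fun_prop]
theorem measurable_lab {α : Type*} [MeasurableSpace α] {X : α → Fin k → E d} {s : α → E d}
    (hX : Measurable X) (hs : Measurable s) : Measurable fun a => lab (X a) (s a) := by
  unfold lab
  fun_prop

/-- reference measure on rows and labels -/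
noncomputable abbrev lam (d k : ℕ) : Measure ((Fin k → E d) × (Fin k → ℝ)) :=
  (rows d k).prod volume

theorem fun_of_set {α : Type*} [MeasurableSpace α] (μ lm : Measure α) (θ B : ℝ≥0∞)
    (h : ∀ A, MeasurableSet A → μ A ≤ θ * lm A + B) {r : α → ℝ≥0∞} (hr : Measurable r)
    (hr1 : ∀ x, r x ≤ 1) : ∫⁻ x, r x ∂μ ≤ θ * ∫⁻ x, r x ∂lm + B := by
  have e : ∀ x, r x = ENNReal.ofReal (r x).toReal := fun x =>
    (ENNReal.ofReal_toReal (ne_top_of_le_ne_top ENNReal.one_ne_top (hr1 x))).symm
  have hm : Measurable fun x => (r x).toReal := hr.ennreal_toReal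
  rw [lintegral_congr e, lintegral_congr (μ := lm) e,
    lintegral_eq_lintegral_meas_lt μ (ae_of_all _ fun _ => ENNReal.toReal_nonneg) hm.aemeasurable,
    lintegral_eq_lintegral_meas_lt lm (ae_of_all _ fun _ => ENNReal.toReal_nonneg) hm.aemeasurable]
  have ha : Measurable fun t : ℝ => lm {a | t < (r a).toReal} :=
    Antitone.measurable fun t t' htt => measure_mono fun a (ha : t' < _) => htt.trans_lt ha
  calc _ ≤ ∫⁻ t in Set.Ioi (0 : ℝ), (θ * lm {a | t < (r a).toReal} +
        (Set.Iio (1 : ℝ)).indicator (fun _ => B) t) := by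
        refine lintegral_mono fun t => ?_
        by_cases ht : t < 1
        · rw [Set.indicator_of_mem (Set.mem_Iio.2 ht)]
          exact h _ (measurableSet_lt measurable_const hm)
        · refine le_of_eq_of_le (measure_mono_null (t := ∅) (fun a (ha : t < _) => ht ?_)
            measure_empty) zero_le
          exact ha.trans_le (ENNReal.toReal_le_of_le_ofReal zero_le_one (by simpa using hr1 a))
    _ = _ := by
        rw [lintegral_add_left (ha.const_mul θ), lintegral_const_mul _ ha,
          lintegral_indicator_const measurableSet_Iio, Measure.restrict_apply measurableSet_Iio,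
          Set.Iio_inter_Ioi, Real.volume_Ioo]
        simp

theorem le_add_pow_div (H t : ℝ≥0∞) (ht0 : t ≠ 0) (ht : t ≠ ∞) (n : ℕ) :
    H ≤ t + H ^ (n + 1) / t ^ n := by
  rcases le_total H t with h | h
  · exact h.trans le_self_add
  · refine le_trans ?_ le_add_self
    rw [ENNReal.le_div_iff_mul_le (Or.inl (pow_ne_zero _ ht0)) (Or.inl (ENNReal.pow_ne_top ht)),
      pow_succ']
    gcongr

/-- pairs of a signal and a sample whose labels are `δ`-close -/
def close (d k : ℕ) (δ : ℝ) : Set (E d × (Fin k → E d) × (Fin k → ℝ)) :=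
  {p | dist p.2.2 (lab p.2.1 p.1) ≤ δ}

theorem measurableSet_close (δ : ℝ) : MeasurableSet (close d k δ) :=
  measurableSet_le (by fun_prop) measurable_const

theorem volume_cube {δ : ℝ} (hδ : 0 ≤ δ) (y : Fin k → ℝ) :
    volume (closedBall y δ) = ENNReal.ofReal (2 * δ) ^ k := by
  rw [Real.volume_pi_closedBall _ hδ, Fintype.card_fin, ENNReal.ofReal_pow (by positivity)]

theorem lintegral_pow_le {ν : Measure (E d)} [IsFiniteMeasure ν] {δ : ℝ} (hδ : 0 < δ) (n : ℕ) :
    ∫⁻ p, ν ((fun s => (s, p)) ⁻¹' close d k δ) ^ (n + 1) ∂lam d k ≤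
      ENNReal.ofReal (2 * δ) ^ k * ∫⁻ s, ∫⁻ X, ν (near (2 * δ) s X) ^ n ∂rows d k ∂ν := by
  have hc := measurableSet_close (d := d) (k := k) δ
  have hH : Measurable fun p => ν ((fun s => (s, p)) ⁻¹' close d k δ) :=
    measurable_measure_prodMk_right hc
  let f : ((Fin k → E d) × (Fin k → ℝ)) → E d → ℝ≥0∞ := fun p s =>
    ((fun s => (s, p)) ⁻¹' close d k δ).indicator
      (fun _ => ν ((fun s => (s, p)) ⁻¹' close d k δ) ^ n) s
  have hf : Measurable (Function.uncurry f) := by
    have h := ((hH.comp (measurable_fst (β := E d))).pow_const n).indicator (measurable_swap hc)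
    exact h
  have e : ∀ p, ν ((fun s => (s, p)) ⁻¹' close d k δ) ^ (n + 1) = ∫⁻ s, f p s ∂ν := by
    intro p
    rw [pow_succ, ← lintegral_indicator_const (measurable_prodMk_right hc)]
  have hn : Measurable fun p : E d × (Fin k → E d) => ν (near (2 * δ) p.1 p.2) ^ n :=
    (measurable_near _ ν).pow_const n
  rw [lintegral_congr e, lintegral_lintegral_swap hf.aemeasurable,
    ← lintegral_const_mul _ hn.lintegral_prod_right']
  refine lintegral_mono fun s => ?_
  rw [← lintegral_const_mul _ ((measurable_near' _ ν s).pow_const n)]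
  refine (lintegral_prod_le _).trans (lintegral_mono fun X => ?_)
  rw [mul_comm, ← volume_cube hδ.le (lab X s), ← lintegral_indicator_const measurableSet_closedBall]
  refine lintegral_mono fun y => ?_
  by_cases h : y ∈ closedBall (lab X s) δ
  · rw [Set.indicator_of_mem h]
    refine (Set.indicator_le_self _ _ s).trans (pow_le_pow_left' (measure_mono fun s' hs' l => ?_) n)
    have h1 := (dist_le_pi_dist y (lab X s) l).trans h
    have h2 := (dist_le_pi_dist y (lab X s') l).trans hs'
    rw [Real.dist_eq, abs_le] at h1 h2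
    simp only [lab] at h1 h2
    rw [inner_sub_right, abs_le]
    constructor <;> linarith [h1.1, h1.2, h2.1, h2.2]
  · rw [Set.indicator_of_notMem h]
    have h' : s ∉ (fun s => (s, (X, y))) ⁻¹' close d k δ := h
    exact le_of_eq (Set.indicator_of_notMem h' _)

theorem smooth_le {n a : ℕ} (ha : n + 1 ≤ a) {ν : Measure (E d)} [IsFiniteMeasure ν]
    {N : ℝ≥0∞} (hν : Mor (k + a) ν N) {z : E d} {ρ : ℝ} (hρ : 0 < ρ)
    (hs : ∀ᵐ s ∂ν, s ∈ closedBall z ρ) {b c : ℝ≥0∞} (hb0 : b ≠ 0) (hb : b ≠ ∞) (hc0 : c ≠ 0)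
    (hc : c ≠ ∞) (hc' : 8 ^ (k + a) * N * ENNReal.ofReal ρ ^ a ≤ c) {δ : ℝ} (hδ : 0 < δ)
    {A : Set ((Fin k → E d) × (Fin k → ℝ))} (hA : MeasurableSet A) :
    (ν.prod (lam d k)) (close d k δ ∩ Prod.snd ⁻¹' A) ≤
      ENNReal.ofReal (2 * δ) ^ k * (b * c * lam d k A + ν Set.univ / b ^ n) := by
  have hcl := measurableSet_close (d := d) (k := k) δ
  have hH : Measurable fun p => ν ((fun s => (s, p)) ⁻¹' close d k δ) :=
    measurable_measure_prodMk_right hcl
  set v := ENNReal.ofReal (2 * δ) ^ k with hv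
  have hv0 : v ≠ 0 := pow_ne_zero _ (ENNReal.ofReal_pos.2 (by positivity)).ne'
  have hv1 : v ≠ ∞ := ENNReal.pow_ne_top ENNReal.ofReal_ne_top
  have h1 : ∫⁻ s, ∫⁻ X, ν (near (2 * δ) s X) ^ n ∂rows d k ∂ν ≤ (v * c) ^ n * ν Set.univ := by
    rw [← lintegral_const]
    refine lintegral_mono_ae (hs.mono fun s₁ h₁ => ?_)
    have h2 := moment_le ha hν (s₁ := s₁) (η := 2 * δ) hρ (by positivity)
      (hs.mono fun s h => by
        rw [← dist_eq_norm]
        linarith [dist_triangle_right s s₁ z, mem_closedBall.1 h, mem_closedBall.1 h₁]) n []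
      (by simp)
    have h3 : slab (2 * δ) ([] : List (E d)) = Set.univ := by simp [slab]
    simp only [h3, Set.pi_univ, Measure.restrict_univ, measure_univ, one_pow, one_mul] at h2
    refine h2.trans ?_
    gcongr
  have ht0 : v * (b * c) ≠ 0 := mul_ne_zero hv0 (mul_ne_zero hb0 hc0)
  have ht1 : v * (b * c) ≠ ∞ := ENNReal.mul_ne_top hv1 (ENNReal.mul_ne_top hb hc)
  rw [Measure.prod_apply_symm (hcl.inter (measurable_snd hA))]
  calc _ ≤ ∫⁻ p, (A.indicator (fun _ => v * (b * c)) p +
        ν ((fun s => (s, p)) ⁻¹' close d k δ) ^ (n + 1) * ((v * (b * c)) ^ n)⁻¹) ∂lam d k := by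
        refine lintegral_mono fun p => ?_
        by_cases hp : p ∈ A
        · rw [Set.indicator_of_mem hp]
          exact (measure_mono fun s hs => hs.1).trans (le_add_pow_div _ _ ht0 ht1 n)
        · exact le_of_eq_of_le (measure_mono_null (t := ∅) (fun s hs => hp hs.2) measure_empty)
            zero_le
    _ = v * (b * c) * lam d k A + (∫⁻ p, ν ((fun s => (s, p)) ⁻¹' close d k δ) ^ (n + 1) ∂lam d k) *
        ((v * (b * c)) ^ n)⁻¹ := by
        rw [lintegral_add_left (measurable_const.indicator hA), lintegral_indicator_const hA,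
          lintegral_mul_const _ (hH.pow_const _)]
    _ ≤ v * (b * c) * lam d k A + (v * ((v * c) ^ n * ν Set.univ)) * ((v * (b * c)) ^ n)⁻¹ := by
        gcongr
        exact (lintegral_pow_le hδ n).trans (by gcongr)
    _ = _ := by
        have h4 : (v * c) ^ n ≠ 0 := pow_ne_zero _ (mul_ne_zero hv0 hc0)
        have h5 : (v * c) ^ n ≠ ∞ := ENNReal.pow_ne_top (ENNReal.mul_ne_top hv1 hc)
        have h6 : (v * (b * c)) ^ n = (v * c) ^ n * b ^ n := by ring
        rw [h6, ENNReal.mul_inv (Or.inl h4) (Or.inl h5), mul_add, div_eq_mul_inv]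
        congr 1
        · ring
        · calc _ = v * (ν Set.univ * (b ^ n)⁻¹) * ((v * c) ^ n * ((v * c) ^ n)⁻¹) := by ring
            _ = _ := by rw [ENNReal.mul_inv_cancel h4 h5, mul_one]

/-- the joint law of the rows and the labels -/
noncomputable def joint (k : ℕ) (ν : Measure (E d)) : Measure ((Fin k → E d) × (Fin k → ℝ)) :=
  (ν.prod (rows d k)).map fun p => (p.2, lab p.2 p.1)

theorem joint_le {n a : ℕ} (ha : n + 1 ≤ a) {ν : Measure (E d)} [IsFiniteMeasure ν]
    {N : ℝ≥0∞} (hν : Mor (k + a) ν N) {z : E d} {ρ : ℝ} (hρ : 0 < ρ)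
    (hs : ∀ᵐ s ∂ν, s ∈ closedBall z ρ) {b c : ℝ≥0∞} (hb0 : b ≠ 0) (hb : b ≠ ∞) (hc0 : c ≠ 0)
    (hc : c ≠ ∞) (hc' : 8 ^ (k + a) * N * ENNReal.ofReal ρ ^ a ≤ c)
    (A : Set ((Fin k → E d) × (Fin k → ℝ))) :
    joint k ν A ≤ b * c * lam d k A + ν Set.univ / b ^ n := by
  have hopen : ∀ U : Set ((Fin k → E d) × (Fin k → ℝ)), IsOpen U →
      joint k ν U ≤ b * c * lam d k U + ν Set.univ / b ^ n := by
    intro U hU
    rw [joint, Measure.map_apply (by fun_prop) hU.measurableSet]
    let S : ℕ → Set (E d × (Fin k → E d)) := fun j =>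
      {p | ∀ y ∈ closedBall (lab p.2 p.1) (1 / ((j : ℝ) + 1)), (p.2, y) ∈ U}
    have hS : Monotone S := fun i j hij p hp y hy =>
      hp y (closedBall_subset_closedBall (Nat.one_div_le_one_div hij) hy)
    have h1 : (fun p : E d × (Fin k → E d) => (p.2, lab p.2 p.1)) ⁻¹' U ⊆ ⋃ j, S j := by
      intro p hp
      obtain ⟨ε, hε, h⟩ := Metric.isOpen_iff.1 (hU.preimage (Continuous.prodMk_right p.2)) _ hp
      obtain ⟨j, hj⟩ := exists_nat_one_div_lt hε
      exact Set.mem_iUnion.2 ⟨j, fun y hy => h (closedBall_subset_ball hj hy)⟩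
    refine (measure_mono h1).trans ?_
    rw [hS.measure_iUnion]
    refine iSup_le fun j => ?_
    set δ : ℝ := 1 / ((j : ℝ) + 1)
    have hδ : 0 < δ := Nat.one_div_pos_of_nat
    have h2 := smooth_le ha hν hρ hs hb0 hb hc0 hc hc' hδ hU.measurableSet
    have hm : MeasurableSet (close d k δ ∩ Prod.snd ⁻¹' U) :=
      (measurableSet_close δ).inter (measurable_snd hU.measurableSet)
    have hm' := MeasurableEquiv.prodAssoc.measurable hm
    rw [← Measure.prodAssoc_prod, Measure.map_apply MeasurableEquiv.prodAssoc.measurable hm,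
      Measure.prod_apply hm'] at h2
    have h3 := mul_meas_ge_le_lintegral₀ (μ := ν.prod (rows d k))
      (measurable_measure_prodMk_left (ν := volume) hm').aemeasurable
      (ENNReal.ofReal (2 * δ) ^ k)
    refine (ENNReal.mul_le_mul_iff_right (pow_ne_zero k (ENNReal.ofReal_pos.2 (by positivity)).ne')
      (ENNReal.pow_ne_top ENNReal.ofReal_ne_top)).1 (le_trans ?_ (h3.trans h2))
    refine mul_le_mul_right (measure_mono fun p hp => ?_) _
    rw [Set.mem_ofPred_eq, ← volume_cube hδ.le (lab p.2 p.1)]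
    exact measure_mono fun y hy => ⟨hy, hp y hy⟩
  have hθ : b * c ≠ ∞ := ENNReal.mul_ne_top hb hc
  refine ENNReal.le_of_forall_pos_le_add fun ε hε _ => ?_
  obtain ⟨U, hAU, hU, h⟩ := A.exists_isOpen_le_add (lam d k) (ε := ε / (b * c))
    (ENNReal.div_pos (by exact_mod_cast hε.ne') hθ).ne'
  calc _ ≤ joint k ν U := measure_mono hAU
    _ ≤ b * c * (lam d k A + ε / (b * c)) + ν Set.univ / b ^ n :=
        (hopen U hU).trans (by gcongr)
    _ = _ := by
        rw [mul_add, ENNReal.mul_div_cancel (mul_ne_zero hb0 hc0) hθ]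
        ring

theorem exists_region (z : E d) {ρ : ℝ} (hρ : 0 < ρ) :
    ∃ R : Set ((Fin k → E d) × (Fin k → ℝ)), MeasurableSet R ∧
      (∀ s ∈ closedBall z ρ, ∀ X, (X, lab X s) ∈ R) ∧
      lam d k R ≤ 2 ^ (d + 1) * (K0 * 8) ^ k * ENNReal.ofReal ρ ^ k := by
  let f : (Fin k → E d) → E d → ℝ≥0∞ := fun X u =>
    ∏ l, ENNReal.ofReal (Real.exp (⟪X l, u⟫ ^ 2 / 16))
  have hf : Measurable (Function.uncurry f) := by
    refine Finset.measurable_prod _ fun l _ => ?_
    fun_prop
  let F : (Fin k → E d) → ℝ≥0∞ := fun X => ∫⁻ u in closedBall 0 2, f X u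
  have hF : Measurable F := hf.lintegral_prod_right'
  let g : (Fin k → E d) × (Fin k → ℝ) → ℝ≥0∞ := fun p =>
    ∏ l, ENNReal.ofReal (Real.exp (-((p.2 l - ⟪p.1 l, z⟫) ^ 2 / (16 * ρ ^ 2))))
  have hg : Measurable g := by
    refine Finset.measurable_prod _ fun l _ => ?_
    fun_prop
  set ω := (volume : Measure (E d)) (ball 0 1) with hω
  have hω0 : ω ≠ 0 := (measure_ball_pos _ 0 one_pos).ne'
  have hω1 : ω ≠ ∞ := measure_ball_lt_top.ne
  have hW : Measurable fun p : (Fin k → E d) × (Fin k → ℝ) => 2 * F p.1 * g p :=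
    ((hF.comp measurable_fst).const_mul 2).mul hg
  refine ⟨{p | ω ≤ 2 * F p.1 * g p}, measurableSet_le measurable_const hW, fun s hs X => ?_, ?_⟩
  · set w := ρ⁻¹ • (s - z) with hw
    have hw1 : ‖w‖ ≤ 1 := by
      rw [hw, norm_smul, norm_inv, Real.norm_eq_abs, abs_of_pos hρ, inv_mul_le_iff₀ hρ, mul_one]
      exact mem_closedBall_iff_norm.1 hs
    have hfX : Measurable (f X) := hf.of_uncurry_left
    have h1 : f X w * g (X, lab X s) = 1 := by
      simp only [f, g, lab]
      rw [← Finset.prod_mul_distrib]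
      refine Finset.prod_eq_one fun l _ => ?_
      rw [← ENNReal.ofReal_mul (Real.exp_pos _).le, ← Real.exp_add, hw, real_inner_smul_right,
        inner_sub_right, ← ENNReal.ofReal_one, ← Real.exp_zero]
      congr 2
      field_simp
      ring
    have e : ∀ u, f X u = ENNReal.ofReal (Real.exp (∑ l, ⟪X l, u⟫ ^ 2 / 16)) := fun u => by
      rw [Real.exp_sum, ENNReal.ofReal_prod_of_nonneg fun l _ => (Real.exp_pos _).le]
    have h2 : ∀ u, f X w ≤ f X (w + u) + f X (w - u) := by
      intro u
      have h3 : 2 * ∑ l, ⟪X l, w⟫ ^ 2 / 16 ≤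
          ∑ l, ⟪X l, w + u⟫ ^ 2 / 16 + ∑ l, ⟪X l, w - u⟫ ^ 2 / 16 := by
        rw [Finset.mul_sum, ← Finset.sum_add_distrib]
        refine Finset.sum_le_sum fun l _ => ?_
        rw [inner_add_right, inner_sub_right]
        nlinarith [sq_nonneg ⟪X l, u⟫]
      simp only [e]
      rcases le_total (∑ l, ⟪X l, w⟫ ^ 2 / 16) (∑ l, ⟪X l, w + u⟫ ^ 2 / 16) with h | h
      · exact (ENNReal.ofReal_le_ofReal (Real.exp_le_exp.2 h)).trans le_self_add
      · exact (ENNReal.ofReal_le_ofReal (Real.exp_le_exp.2 (by linarith))).trans le_add_self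
    have hI : Measurable ((closedBall (0 : E d) 2).indicator (f X)) :=
      hfX.indicator measurableSet_closedBall
    have h4 : f X w * ω ≤ 2 * F X := by
      calc _ = ∫⁻ u, (ball (0 : E d) 1).indicator (fun _ => f X w) u :=
            (lintegral_indicator_const measurableSet_ball _).symm
        _ ≤ ∫⁻ u, ((closedBall (0 : E d) 2).indicator (f X) (w + u) +
            (closedBall (0 : E d) 2).indicator (f X) (w - u)) := by
            refine lintegral_mono fun u => ?_
            by_cases hu : u ∈ ball (0 : E d) 1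
            · have h5 := mem_ball_zero_iff.1 hu
              rw [Set.indicator_of_mem hu, Set.indicator_of_mem (mem_closedBall_zero_iff.2
                ((norm_add_le _ _).trans (by linarith))), Set.indicator_of_mem
                (mem_closedBall_zero_iff.2 ((norm_sub_le _ _).trans (by linarith)))]
              exact h2 u
            · rw [Set.indicator_of_notMem hu]
              exact zero_le
        _ = _ := by
            have h6 : Measurable fun u => (closedBall (0 : E d) 2).indicator (f X) (w + u) := by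
              have := hI.comp (measurable_const_add w)
              exact this
            rw [lintegral_add_left h6,
              lintegral_add_left_eq_self ((closedBall (0 : E d) 2).indicator (f X)) w,
              lintegral_sub_left_eq_self ((closedBall (0 : E d) 2).indicator (f X)) w,
              lintegral_indicator measurableSet_closedBall, two_mul]
    calc ω = f X w * ω * g (X, lab X s) := by rw [mul_right_comm, h1, one_mul]
      _ ≤ 2 * F X * g (X, lab X s) := by gcongr
  · have h1 := mul_meas_ge_le_lintegral₀ (μ := lam d k) hW.aemeasurable ω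
    refine (ENNReal.mul_le_mul_iff_right hω0 hω1).1 (h1.trans ?_)
    have h2 : ∀ X : Fin k → E d, ∫⁻ y, g (X, y) ≤ ENNReal.ofReal (8 * ρ) ^ k := by
      intro X
      have h3 := lintegral_pi_prod (volume : Measure ℝ) k
        (fun l y => ENNReal.ofReal (Real.exp (-((y - ⟪X l, z⟫) ^ 2 / (16 * ρ ^ 2)))))
        (fun l => by fun_prop)
      refine (le_of_eq h3).trans ?_
      refine (Finset.prod_le_pow_card _ _ _ fun l _ => lintegral_exp_neg _ ρ hρ).trans ?_
      simp
    have h3 : ∫⁻ X, F X ∂rows d k ≤ K0 ^ k * (2 ^ d * ω) := by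
      rw [lintegral_lintegral_swap hf.aemeasurable]
      have h4 : (volume : Measure (E d)) (closedBall 0 2) = 2 ^ d * ω := by
        rw [Measure.addHaar_closedBall _ _ (by norm_num), finrank_euclideanSpace_fin,
          ENNReal.ofReal_pow (by norm_num)]
        simp [hω]
      rw [← h4, ← setLIntegral_const]
      refine setLIntegral_mono' measurableSet_closedBall fun u hu => ?_
      have h5 := lintegral_pi_prod (stdGaussian (E d)) k
        (fun _ x => ENNReal.ofReal (Real.exp (⟪x, u⟫ ^ 2 / 16))) (fun l => by fun_prop)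
      refine (le_of_eq h5).trans ?_
      refine (Finset.prod_le_pow_card _ _ _ fun l _ =>
        lintegral_exp_inner (mem_closedBall_zero_iff.1 hu)).trans ?_
      simp
    rw [lintegral_prod _ hW.aemeasurable]
    calc _ ≤ ∫⁻ X, 2 * F X * ENNReal.ofReal (8 * ρ) ^ k ∂rows d k := by
          refine lintegral_mono fun X => ?_
          simp only
          have h6 : Measurable fun y => g (X, y) := by fun_prop
          rw [lintegral_const_mul _ h6]
          gcongr
          exact h2 X
      _ = 2 * (∫⁻ X, F X ∂rows d k) * ENNReal.ofReal (8 * ρ) ^ k := by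
          rw [lintegral_mul_const _ (hF.const_mul 2), lintegral_const_mul _ hF]
      _ ≤ 2 * (K0 ^ k * (2 ^ d * ω)) * ENNReal.ofReal (8 * ρ) ^ k := by gcongr
      _ = _ := by
          rw [ENNReal.ofReal_mul (by norm_num), ENNReal.ofReal_ofNat]
          ring

end Vale.Agent.P309
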