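import Mathlib

namespace Vale.Agent.P309

open MeasureTheory ProbabilityTheory Metric
open scoped RealInnerProductSpace ENNReal

/-- Euclidean space `ℝ^d`. -/
abbrev E (d : ℕ) : Type := EuclideanSpace ℝ (Fin d)

/-- The uniform probability measure on the unit sphere of `ℝ^d`. -/
noncomputable def unif (d : ℕ) : Measure (sphere (0 : E d) 1) :=
  ((volume : Measure (E d)).toSphere Set.univ)⁻¹ • (volume : Measure (E d)).toSphere

/-- A randomized one-pass learner with state set `Q`. A pair `(q, b) : Q × Bool` is a state
together with the stopping decision (`b = true` means stop now). -/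
structure Learner (d : ℕ) (Q : Type) [MeasurableSpace Q] where
  init : Measure (Q × Bool)
  step : ℕ → Kernel (Q × E d × ℝ) (Q × Bool)
  out : ℕ → Kernel Q (sphere (0 : E d) 1)
  init_prob : IsProbabilityMeasure init
  step_markov : ∀ t, IsMarkovKernel (step t)
  out_markov : ∀ t, IsMarkovKernel (out t)

/-- The law of the output for the signal `s`, when `t` samples have been read, at most `n` more
may be read, and the current state and stopping decision are `q`. -/
noncomputable def Learner.run {d : ℕ} {Q : Type} [MeasurableSpace Q] (L : Learner d Q) (s : E d) :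
    ℕ → ℕ → Q × Bool → Measure (sphere (0 : E d) 1)
  | 0, t, q => L.out t q.1
  | n + 1, t, q =>
    if q.2 then L.out t q.1
    else ((stdGaussian (E d)).bind fun x => L.step t (q.1, x, ⟪x, s⟫)).bind (L.run s n (t + 1))

/-- The probability of angular error at most `ε` with horizon `T` and a uniform signal. -/
noncomputable def Learner.success {d : ℕ} {Q : Type} [MeasurableSpace Q] (L : Learner d Q)
    (T : ℕ) (ε : ℝ) : ℝ≥0∞ :=
  ∫⁻ s, (L.init.bind (L.run s T 0)) {u | Real.arccos ⟪(u : E d), (s : E d)⟫ ≤ ε} ∂unif d

end Vale.Agent.P309
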