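import Vale.Agent.P309.Main

namespace Vale.Agent.P309

open MeasureTheory ProbabilityTheory Metric
open scoped RealInnerProductSpace ENNReal NNReal

theorem one_le_K0 : 1 ≤ K0 :=
  calc (1 : ℝ≥0∞) = ∫⁻ _, 1 ∂gaussianReal 0 1 := by simp
    _ ≤ K0 := lintegral_mono fun t => ENNReal.one_le_ofReal.2 (Real.one_le_exp (by positivity))

theorem success_bound (A : ℕ) : ∃ C : ℝ, 3 ≤ C ∧ ∀ d : ℕ, 16 ≤ d → ∀ ε : ℝ, 0 < ε → ε ≤ 1 →
    ∀ M T : ℕ, M ≤ A * d ^ 2 → ∀ (Q : Type) [Fintype Q] [MeasurableSpace Q]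
      [DiscreteMeasurableSpace Q], Fintype.card Q ≤ 2 ^ M → ∀ L : Learner d Q,
      L.success T ε ≤ ENNReal.ofReal ((C ^ d) ^ (T / (d / 8) + 1) * (2 * 3 ^ d * ε ^ (d / 2))) := by
  have hK : K0 * 8 ≠ ∞ := ENNReal.mul_ne_top K0_ne_top (by norm_num)
  have hK1 : 1 ≤ K0 * 8 := one_le_mul one_le_K0 (by norm_num)
  set C : ℝ≥0∞ := 2 ^ (16 * A + 8) * (K0 * 8) with hC
  have hCt : C ≠ ∞ := ENNReal.mul_ne_top (ENNReal.pow_ne_top (by norm_num)) hK
  have hC3 : 3 ≤ C := by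
    calc (3 : ℝ≥0∞) ≤ 2 ^ 2 * 1 := by norm_num
      _ ≤ C := mul_le_mul' (pow_le_pow_right' one_le_two (by omega)) hK1
  refine ⟨C.toReal, by simpa using ENNReal.toReal_mono hCt hC3, ?_⟩
  intro d hd ε hε hε1 M T hM Q _ _ _ hQ L
  set k := d / 8 with hk
  have hk2 : 2 ≤ k := by omega
  obtain ⟨e, he, he2⟩ : ∃ e, d = k + (k + 1) + e + 1 ∧ d / 2 ≤ e :=
    ⟨d - (k + (k + 1) + 1), by omega, by omega⟩
  have hI : (Fintype.card ((Q × Bool) × Fin (k + 1)) : ℝ≥0∞) ≤ (2 ^ (16 * A * d + 2)) ^ k := by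
    have h1 : Fintype.card ((Q × Bool) × Fin (k + 1)) ≤ (2 ^ (16 * A * d + 2)) ^ k := by
      simp only [Fintype.card_prod, Fintype.card_bool, Fintype.card_fin]
      have h2 : k + 1 ≤ 2 ^ k := Nat.lt_two_pow_self
      have h3 : d ≤ 16 * k := by omega
      have h4 : M ≤ 16 * A * d * k := by
        calc M ≤ A * (d * d) := by rw [← sq]; exact hM
          _ ≤ A * (d * (16 * k)) := by gcongr
          _ = _ := by ring
      calc _ ≤ 2 ^ M * 2 * 2 ^ k := by gcongr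
        _ = 2 ^ (M + 1 + k) := by ring
        _ ≤ 2 ^ ((16 * A * d + 2) * k) := Nat.pow_le_pow_right two_pos (by rw [add_mul]; omega)
        _ = _ := pow_mul _ _ _
    exact_mod_cast h1
  have hC' : (2 : ℝ≥0∞) ^ (16 * A * d + 2) * 8 ^ (k + (k + 1)) * (2 ^ (d + 1) * (K0 * 8) ^ k) + 1 ≤
      C ^ d := by
    have h1 : (2 : ℝ≥0∞) ^ (16 * A * d + 2) * 8 ^ (k + (k + 1)) * (2 ^ (d + 1) * (K0 * 8) ^ k) ≤
        2 ^ (16 * A * d + 4 * d + 3) * (K0 * 8) ^ d := by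
      calc _ ≤ (2 : ℝ≥0∞) ^ (16 * A * d + 2) * 8 ^ d * (2 ^ (d + 1) * (K0 * 8) ^ d) := by
            gcongr
            · norm_num
            · omega
            · omega
        _ = _ := by rw [show (8 : ℝ≥0∞) ^ d = 2 ^ (3 * d) by rw [pow_mul]; norm_num]; ring
    have h2 : (1 : ℝ≥0∞) ≤ 2 ^ (16 * A * d + 4 * d + 3) * (K0 * 8) ^ d :=
      one_le_mul (one_le_pow_of_one_le' one_le_two _) (one_le_pow_of_one_le' hK1 _)
    calc _ ≤ 2 ^ (16 * A * d + 4 * d + 3) * (K0 * 8) ^ d +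
          2 ^ (16 * A * d + 4 * d + 3) * (K0 * 8) ^ d := add_le_add h1 h2
      _ = 2 ^ (16 * A * d + 4 * d + 4) * (K0 * 8) ^ d := by ring
      _ ≤ 2 ^ ((16 * A + 8) * d) * (K0 * 8) ^ d :=
          mul_le_mul_left (pow_le_pow_right' one_le_two (by rw [add_mul]; omega)) _
      _ = _ := by rw [hC, mul_pow (2 ^ (16 * A + 8)), ← pow_mul]
  have h := success_le L ε fun q => morF_val L ε he hε le_rfl (pow_ne_zero _ two_ne_zero)
    (ENNReal.pow_ne_top (by norm_num)) (ENNReal.pow_ne_top hCt) hI hC' (T / k + 1) T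
    (Nat.lt_mul_div_succ T (by omega)).le 0 q
  refine h.trans ?_
  rw [ENNReal.ofReal_mul (by positivity), ENNReal.ofReal_mul (by positivity),
    ENNReal.ofReal_mul (by positivity), ENNReal.ofReal_pow (by positivity),
    ENNReal.ofReal_pow (by positivity), ENNReal.ofReal_pow (by positivity),
    ENNReal.ofReal_pow hε.le, ENNReal.ofReal_toReal hCt, ENNReal.ofReal_ofNat, ENNReal.ofReal_ofNat]
  exact mul_le_mul_right (mul_le_mul_right
    (pow_le_pow_right_of_le_one' (ENNReal.ofReal_le_one.2 hε1) he2) _) _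

theorem lower_bound (A : ℝ) : ∃ c : ℝ, 0 < c ∧ ∃ ε₀ : ℝ, 0 < ε₀ ∧ ∃ d₀ : ℕ, ∀ d : ℕ, d₀ ≤ d →
    ∀ ε : ℝ, 0 < ε → ε ≤ ε₀ → ∀ M T : ℕ, (M : ℝ) ≤ A * (d : ℝ) ^ 2 →
      ∀ (Q : Type) [Fintype Q] [MeasurableSpace Q] [DiscreteMeasurableSpace Q],
        Fintype.card Q ≤ 2 ^ M → ∀ L : Learner d Q, 2 / 3 ≤ L.success T ε →
          c * d * Real.log (1 / ε) ≤ T := by
  obtain ⟨C, hC, H⟩ := success_bound ⌈A⌉₊
  have hl : 1 ≤ Real.log C := by
    rw [Real.le_log_iff_exp_le (by linarith)]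
    linarith [Real.exp_one_lt_three]
  refine ⟨1 / (128 * Real.log C), by positivity, Real.exp (-(24 * Real.log C)), Real.exp_pos _, 16,
    fun d hd ε hε hε₀ M T hM Q _ _ _ hQ L hs => ?_⟩
  have hε1 : ε ≤ 1 := hε₀.trans (Real.exp_le_one_iff.2 (by linarith))
  have hM' : M ≤ ⌈A⌉₊ * d ^ 2 := by
    have : (M : ℝ) ≤ ⌈A⌉₊ * (d : ℝ) ^ 2 := hM.trans (by gcongr; exact Nat.le_ceil A)
    exact_mod_cast this
  have h1 := hs.trans (H d hd ε hε hε1 M T hM' Q hQ L)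
  have e : (2 / 3 : ℝ≥0∞) = ENNReal.ofReal (2 / 3) := by
    rw [ENNReal.ofReal_div_of_pos (by norm_num)]; simp
  rw [e, ENNReal.ofReal_le_ofReal_iff (by positivity)] at h1
  set J := T / (d / 8) with hJ
  set x := Real.log (1 / ε) with hx
  have hx1 : 24 * Real.log C ≤ x := by
    rw [hx, one_div, Real.log_inv]
    have := Real.log_le_log hε hε₀
    rw [Real.log_exp] at this
    linarith
  have h2 : (1 / ε) ^ (d / 2) ≤ C ^ (d * (J + 3)) := by
    have h3 : (3 : ℝ) * 3 ^ d ≤ C ^ d * C ^ d := by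
      gcongr
      exact hC.trans (le_self_pow₀ (by linarith) (by omega))
    have h4 : 1 ≤ (C ^ d) ^ (J + 1) * (3 * 3 ^ d) * ε ^ (d / 2) := by linarith
    rw [one_div, inv_pow, inv_le_iff_one_le_mul₀ (by positivity)]
    calc _ ≤ (C ^ d) ^ (J + 1) * (C ^ d * C ^ d) * ε ^ (d / 2) := h4.trans (by gcongr)
      _ = _ := by ring
  have h5 := Real.log_le_log (by positivity) h2
  rw [Real.log_pow, Real.log_pow, ← hx] at h5
  have h6 : (d : ℝ) ≤ 4 * ((d / 2 : ℕ) : ℝ) := by exact_mod_cast (by omega : d ≤ 4 * (d / 2))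
  have h7 : (J : ℝ) * d ≤ 16 * T := by
    have h8 : J * (d / 8) ≤ T := Nat.div_mul_le_self _ _
    have h9 : J * d ≤ 16 * T :=
      calc J * d ≤ J * (16 * (d / 8)) := Nat.mul_le_mul_left _ (by omega)
        _ = 16 * (J * (d / 8)) := by ring
        _ ≤ _ := by omega
    exact_mod_cast h9
  have hd0 : (0 : ℝ) < d := by exact_mod_cast (by omega : 0 < d)
  push_cast at h5
  have hx0 : 0 ≤ x := by linarith
  rw [div_mul_eq_mul_div, div_mul_eq_mul_div, div_le_iff₀ (by positivity)]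
  have h10 : (d : ℝ) * x ≤ 4 * (d * (J + 3) * Real.log C) := by nlinarith
  have h11 : (J : ℝ) * d * Real.log C ≤ 16 * T * Real.log C := by gcongr
  have h12 : (d : ℝ) * (24 * Real.log C) ≤ d * x := by gcongr
  nlinarith

end Vale.Agent.P309
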