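import Vale.Agent.P309.Defs

namespace Vale.Agent.P309

open MeasureTheory ProbabilityTheory Metric
open scoped RealInnerProductSpace ENNReal NNReal

variable {d : ℕ}

theorem lintegral_pi_prod {α : Type*} [MeasurableSpace α] (μ : Measure α) [SigmaFinite μ] :
    ∀ (k : ℕ) (f : Fin k → α → ℝ≥0∞), (∀ l, Measurable (f l)) →
      ∫⁻ x : Fin k → α, ∏ l, f l (x l) ∂Measure.pi (fun _ => μ) = ∏ l, ∫⁻ a, f l a ∂μ := by
  intro k
  induction k with
  | zero => intro f _; simp
  | succ k ih =>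
    intro f hf
    have h := (measurePreserving_piFinSuccAbove (fun _ : Fin (k + 1) => μ) 0).symm
    rw [← h.lintegral_comp_emb (MeasurableEquiv.measurableEmbedding _)]
    simp only [Fin.prod_univ_succ, MeasurableEquiv.piFinSuccAbove_symm_apply, Fin.insertNthEquiv,
      Equiv.coe_fn_mk, Fin.insertNth_zero, Fin.cons_zero, Fin.cons_succ, cast_eq]
    rw [← ih (fun l => f l.succ) fun l => hf _]
    exact lintegral_prod_mul (μ := μ) (ν := Measure.pi fun _ : Fin k => μ) (f := f 0) (g := fun x : Fin k → α => ∏ l, f l.succ (x l))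
      (hf 0).aemeasurable (Finset.measurable_prod _ fun l _ =>
        (hf _).comp (measurable_pi_apply l)).aemeasurable

theorem gauss_resample {w : E d} (hw : ‖w‖ = 1) :
    ((stdGaussian (E d)).prod (gaussianReal 0 1)).map
      (fun p : E d × ℝ => p.1 + (p.2 - ⟪p.1, w⟫) • w) = stdGaussian (E d) := by
  refine Measure.ext_of_charFun (funext fun ξ => ?_)
  rw [charFun_apply, integral_map (by fun_prop) (by fun_prop)]
  have e : ∀ p : E d × ℝ, Complex.exp ((⟪p.1 + (p.2 - ⟪p.1, w⟫) • w, ξ⟫ : ℝ) * Complex.I) =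
      Complex.exp ((⟪p.1, ξ - ⟪w, ξ⟫ • w⟫ : ℝ) * Complex.I) *
        Complex.exp ((⟪w, ξ⟫ : ℝ) * p.2 * Complex.I) := by
    intro p
    rw [← Complex.exp_add, inner_add_left, inner_sub_right, real_inner_smul_left,
      real_inner_smul_right]
    push_cast
    ring_nf
  simp only [e]
  rw [integral_prod_mul (fun x : E d => Complex.exp ((⟪x, ξ - ⟪w, ξ⟫ • w⟫ : ℝ) * Complex.I))
    (fun t : ℝ => Complex.exp ((⟪w, ξ⟫ : ℝ) * t * Complex.I)), ← charFun_apply,
    ← charFun_apply_real, charFun_stdGaussian, charFun_stdGaussian, charFun_gaussianReal,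
    ← Complex.exp_add]
  have h : ‖ξ - ⟪w, ξ⟫ • w‖ ^ 2 = ‖ξ‖ ^ 2 - ⟪w, ξ⟫ ^ 2 := by
    rw [norm_sub_sq_real, real_inner_smul_right, norm_smul, hw, real_inner_comm ξ w]
    simp only [Real.norm_eq_abs, mul_one, sq_abs]
    ring
  have h' : ((‖ξ - ⟪w, ξ⟫ • w‖ : ℝ) : ℂ) ^ 2 = (‖ξ‖ : ℂ) ^ 2 - (⟪w, ξ⟫ : ℝ) ^ 2 := by
    exact_mod_cast h
  rw [h']
  congr 1
  push_cast
  ring

theorem gauss_Icc (a b : ℝ) : gaussianReal 0 1 (Set.Icc a b) ≤ ENNReal.ofReal ((b - a) / 2) := by
  rw [gaussianReal_apply _ one_ne_zero]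
  have h : ∀ x, gaussianPDF 0 1 x ≤ ENNReal.ofReal (1 / 2) := fun x => by
    refine ENNReal.ofReal_le_ofReal ?_
    simp only [gaussianPDFReal, NNReal.coe_one, mul_one, sub_zero]
    have h1 : Real.exp (-x ^ 2 / 2) ≤ 1 := Real.exp_le_one_iff.2 (by nlinarith [sq_nonneg x])
    have h2 : 2 ≤ √(2 * Real.pi) := Real.le_sqrt_of_sq_le (by linarith [Real.pi_gt_three])
    have h3 : (√(2 * Real.pi))⁻¹ ≤ 1 / 2 := by
      rw [one_div]; exact inv_anti₀ two_pos h2
    calc _ ≤ (1 / 2) * 1 := mul_le_mul h3 h1 (Real.exp_pos _).le (by norm_num)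
      _ = _ := mul_one _
  calc _ ≤ ∫⁻ _ in Set.Icc a b, ENNReal.ofReal (1 / 2) := lintegral_mono h
    _ = _ := by
      rw [setLIntegral_const, Real.volume_Icc, ← ENNReal.ofReal_mul (by norm_num)]
      congr 1; ring

/-- the rows with small inner product against every vector of `L` -/
def slab (η : ℝ) (L : List (E d)) : Set (E d) := {x | ∀ v ∈ L, |⟪x, v⟫| ≤ η}

theorem measurableSet_slab (η : ℝ) (L : List (E d)) : MeasurableSet (slab η L) := by
  induction L with
  | nil => simp [slab]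
  | cons v L ih =>
    have : slab η (v :: L) = {x | |⟪x, v⟫| ≤ η} ∩ slab η L := by
      ext x; simp [slab]
    rw [this]
    exact (measurableSet_le (by fun_prop) measurable_const).inter ih

/-- distance to the span of `L` -/
noncomputable def dspan (L : List (E d)) (v : E d) : ℝ :=
  ‖v - (Submodule.span ℝ {u | u ∈ L}).starProjection v‖

theorem slab_cons_le {η : ℝ} (L : List (E d)) (v : E d) {D : ℝ} (hD : 0 < D)
    (h : D ≤ dspan L v) (hη : 0 ≤ η) :
    stdGaussian (E d) (slab η (v :: L)) ≤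
      stdGaussian (E d) (slab η L) * ENNReal.ofReal (η / D) := by
  set U := Submodule.span ℝ {u | u ∈ L}
  set D' := dspan L v with hD'
  have hD0 : 0 < D' := hD.trans_le h
  set w : E d := D'⁻¹ • (v - U.starProjection v) with hw
  have hw1 : ‖w‖ = 1 := by
    rw [hw, norm_smul, Real.norm_eq_abs, abs_of_pos (inv_pos.2 hD0)]
    exact inv_mul_cancel₀ hD0.ne'
  have hwU : ∀ u ∈ U, ⟪w, u⟫ = 0 := fun u hu => by
    rw [hw, real_inner_smul_left, U.starProjection_inner_eq_zero v u hu, mul_zero]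
  have hwv : ⟪w, v⟫ = D' := by
    have h1 : v = D' • w + U.starProjection v := by
      rw [hw, smul_smul, mul_inv_cancel₀ hD0.ne', one_smul, sub_add_cancel]
    rw [h1, inner_add_right, hwU _ (U.starProjection_apply_mem v), real_inner_smul_right,
      real_inner_self_eq_norm_sq, hw1]
    ring
  conv_lhs => rw [← gauss_resample hw1]
  rw [Measure.map_apply (by fun_prop) (measurableSet_slab _ _),
    Measure.prod_apply ((measurableSet_slab _ _).preimage (by fun_prop)),
    ← lintegral_indicator_one (measurableSet_slab η L),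
    ← lintegral_mul_const _ (measurable_one.indicator (measurableSet_slab η L))]
  refine lintegral_mono fun x => ?_
  by_cases hx : x ∈ slab η L
  · rw [Set.indicator_of_mem hx, Pi.one_apply, one_mul]
    set c := ⟪x, v⟫ - ⟪x, w⟫ * D'
    refine le_trans (measure_mono (t := Set.Icc ((-η - c) / D') ((η - c) / D')) fun t ht => ?_)
      ((gauss_Icc _ _).trans (ENNReal.ofReal_le_ofReal ?_))
    · have h1 := abs_le.1 (ht v List.mem_cons_self)
      simp only [inner_add_left, real_inner_smul_left, hwv] at h1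
      constructor
      · rw [div_le_iff₀ hD0]; simp only [c]; linarith [h1.1]
      · rw [le_div_iff₀ hD0]; simp only [c]; linarith [h1.2]
    · have : ((η - c) / D' - (-η - c) / D') / 2 = η / D' := by field_simp; ring
      rw [this]
      exact div_le_div_of_nonneg_left hη hD h
  · rw [Set.indicator_of_notMem hx, zero_mul]
    refine le_of_eq (measure_mono_null (t := ∅) (fun t ht => hx fun u hu => ?_) measure_empty)
    have h1 := ht u (List.mem_cons_of_mem _ hu)
    simp only [inner_add_left, real_inner_smul_left, hwU u (Submodule.subset_span hu), mul_zero,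
      add_zero] at h1
    exact h1

/-- a finite Gaussian exponential moment -/
noncomputable def K0 : ℝ≥0∞ := ∫⁻ t, ENNReal.ofReal (Real.exp (t ^ 2 / 4)) ∂gaussianReal 0 1

theorem K0_ne_top : K0 ≠ ∞ := by
  unfold K0
  rw [gaussianReal_of_var_ne_zero _ one_ne_zero,
    lintegral_withDensity_eq_lintegral_mul _ (measurable_gaussianPDF _ _) (by fun_prop)]
  have h := (integrable_exp_neg_mul_sq (b := 1 / 4) (by norm_num)).const_mul (√(2 * Real.pi))⁻¹
  refine ne_of_lt (lt_of_eq_of_lt ?_ h.lintegral_lt_top)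
  refine lintegral_congr fun x => ?_
  simp only [Pi.mul_apply, gaussianPDF, gaussianPDFReal, NNReal.coe_one, mul_one, sub_zero]
  rw [← ENNReal.ofReal_mul (by positivity), mul_assoc, ← Real.exp_add]
  congr 3
  ring

theorem lintegral_exp_inner {u : E d} (hu : ‖u‖ ≤ 2) :
    ∫⁻ x, ENNReal.ofReal (Real.exp (⟪x, u⟫ ^ 2 / 16)) ∂stdGaussian (E d) ≤ K0 := by
  by_cases h0 : u = 0
  · subst h0
    simp only [inner_zero_right, ne_eq, OfNat.ofNat_ne_zero, not_false_eq_true, zero_pow, zero_div,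
      Real.exp_zero, ENNReal.ofReal_one, lintegral_const, measure_univ, mul_one]
    calc (1 : ℝ≥0∞) = ∫⁻ _, 1 ∂gaussianReal 0 1 := by simp
      _ ≤ K0 := lintegral_mono fun t => ENNReal.one_le_ofReal.2 (Real.one_le_exp (by positivity))
  have hn : 0 < ‖u‖ := norm_pos_iff.2 h0
  set w : E d := ‖u‖⁻¹ • u with hw
  have hw1 : ‖w‖ = 1 := by
    rw [hw, norm_smul, norm_inv, norm_norm, inv_mul_cancel₀ hn.ne']
  have hu' : u = ‖u‖ • w := by rw [hw, smul_smul, mul_inv_cancel₀ hn.ne', one_smul]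
  rw [← gauss_resample hw1, lintegral_map (by fun_prop) (by fun_prop)]
  calc _ ≤ ∫⁻ p : E d × ℝ, ENNReal.ofReal (Real.exp (p.2 ^ 2 / 4))
        ∂(stdGaussian (E d)).prod (gaussianReal 0 1) := by
        refine lintegral_mono fun p => ENNReal.ofReal_le_ofReal (Real.exp_le_exp.2 ?_)
        have h1 : ⟪p.1 + (p.2 - ⟪p.1, w⟫) • w, u⟫ = ‖u‖ * p.2 := by
          conv_lhs => rw [hu']
          rw [real_inner_smul_right, inner_add_left, real_inner_smul_left,
            real_inner_self_eq_norm_sq, hw1]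
          ring
        rw [h1, mul_pow]
        have : ‖u‖ ^ 2 ≤ 4 := by nlinarith
        nlinarith [sq_nonneg p.2]
    _ = K0 := by
        rw [lintegral_prod _ (by fun_prop)]
        simp [K0]

theorem lintegral_exp_neg (c ρ : ℝ) (hρ : 0 < ρ) :
    ∫⁻ y : ℝ, ENNReal.ofReal (Real.exp (-((y - c) ^ 2 / (16 * ρ ^ 2)))) ≤
      ENNReal.ofReal (8 * ρ) := by
  rw [lintegral_sub_right_eq_self
    (fun y : ℝ => ENNReal.ofReal (Real.exp (-(y ^ 2 / (16 * ρ ^ 2))))) c]
  have hb : 0 < 1 / (16 * ρ ^ 2) := by positivity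
  have e : ∀ y : ℝ, -(y ^ 2 / (16 * ρ ^ 2)) = -(1 / (16 * ρ ^ 2)) * y ^ 2 := fun y => by ring
  simp only [e]
  rw [← ofReal_integral_eq_lintegral_ofReal (integrable_exp_neg_mul_sq hb)
    (ae_of_all _ fun y => (Real.exp_pos _).le), integral_gaussian]
  refine ENNReal.ofReal_le_ofReal (Real.sqrt_le_iff.2 ⟨by positivity, ?_⟩)
  rw [div_div_eq_mul_div, div_one]
  nlinarith [Real.pi_le_four, sq_nonneg ρ]

end Vale.Agent.P309
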