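import Vale.Agent.P309.Block

namespace Vale.Agent.P309

open MeasureTheory ProbabilityTheory Metric
open scoped RealInnerProductSpace ENNReal NNReal Pointwise

variable {d k : ℕ}

/-- Morrey type bound for a function -/
def MorF (a : ℕ) (σ : Measure (E d)) (V : E d → ℝ≥0∞) (N : ℝ≥0∞) : Prop :=
  ∀ (z : E d) (ρ : ℝ), 0 < ρ → ∫⁻ s in closedBall z ρ, V s ∂σ ≤ N * ENNReal.ofReal ρ ^ a

/-- `G` is dominated by a random choice among the `val i` that depends on `j` samples -/
def Rep {I : Type} [Fintype I] (val : I → E d → ℝ≥0∞) (j : ℕ) (G : E d → ℝ≥0∞) : Prop :=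
  ∃ r : I → (Fin j → E d) × (Fin j → ℝ) → ℝ≥0∞, (∀ i, Measurable (r i)) ∧
    (∀ p, ∑ i, r i p ≤ 1) ∧ ∀ s, G s ≤ ∑ i, (∫⁻ X, r i (X, lab X s) ∂rows d j) * val i s

theorem block_le {σ : Measure (E d)} [IsFiniteMeasure σ] {I : Type} [Fintype I]
    {val : I → E d → ℝ≥0∞} (hval : ∀ i, Measurable (val i)) (hval1 : ∀ i s, val i s ≤ 1)
    {n a : ℕ} (ha : n + 1 ≤ a) {N b : ℝ≥0∞} (hN0 : N ≠ 0) (hN : N ≠ ∞) (hb0 : b ≠ 0) (hb : b ≠ ∞)
    (hI : (Fintype.card I : ℝ≥0∞) ≤ b ^ n) (hM : ∀ i, MorF (k + a) σ (val i) N)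
    {G : E d → ℝ≥0∞} (hG : Rep val k G) :
    MorF (k + a) σ G ((b * 8 ^ (k + a) * (2 ^ (d + 1) * (K0 * 8) ^ k) + 1) * N) := by
  intro z ρ hρ
  obtain ⟨r, hr, hr1, hG⟩ := hG
  obtain ⟨R, hR, hR1, hR2⟩ := exists_region (k := k) z hρ
  set c := 8 ^ (k + a) * N * ENNReal.ofReal ρ ^ a with hc
  have hc0 : c ≠ 0 := mul_ne_zero (mul_ne_zero (pow_ne_zero _ (by norm_num)) hN0)
    (pow_ne_zero _ (ENNReal.ofReal_pos.2 hρ).ne')
  have hc1 : c ≠ ∞ := ENNReal.mul_ne_top (ENNReal.mul_ne_top (ENNReal.pow_ne_top (by norm_num)) hN)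
    (ENNReal.pow_ne_top ENNReal.ofReal_ne_top)
  have hm : ∀ {f : (Fin k → E d) × (Fin k → ℝ) → ℝ≥0∞}, Measurable f →
      Measurable fun p : E d × (Fin k → E d) => f (p.2, lab p.2 p.1) := fun hf => by fun_prop
  have key : ∀ i, ∫⁻ s in closedBall z ρ, (∫⁻ X, r i (X, lab X s) ∂rows d k) * val i s ∂σ ≤
      b * c * ∫⁻ p, R.indicator (r i) p ∂lam d k + N * ENNReal.ofReal ρ ^ (k + a) / b ^ n := by
    intro i
    let ν := (σ.withDensity (val i)).restrict (closedBall z ρ)
    have : IsFiniteMeasure (σ.withDensity (val i)) := isFiniteMeasure_withDensity (ne_top_of_le_ne_top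
      (by simp) (lintegral_mono (hval1 i) : _ ≤ ∫⁻ _, 1 ∂σ))
    have hν' : Mor (k + a) (σ.withDensity (val i)) N := fun z' ρ' hρ' => by
      rw [withDensity_apply _ measurableSet_closedBall]
      exact hM i z' ρ' hρ'
    have hν : Mor (k + a) ν N := fun z' ρ' hρ' =>
      (Measure.restrict_le_self _).trans (hν' z' ρ' hρ')
    have hs : ∀ᵐ s ∂ν, s ∈ closedBall z ρ := ae_restrict_mem measurableSet_closedBall
    have hri : Measurable (R.indicator (r i)) := (hr i).indicator hR
    have h1 := fun_of_set (joint k ν) (lam d k) (b * c) (ν Set.univ / b ^ n)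
      (fun A _ => joint_le ha hν hρ hs hb0 hb hc0 hc1 le_rfl A) hri
      (fun p => (Set.indicator_le_self _ _ p).trans
        ((Finset.single_le_sum (f := fun i => r i p) (fun _ _ => zero_le) (Finset.mem_univ i)).trans
          (hr1 p)))
    rw [joint, lintegral_map hri (by fun_prop), lintegral_prod _ (hm hri).aemeasurable] at h1
    have h2 : ν Set.univ ≤ N * ENNReal.ofReal ρ ^ (k + a) := by
      rw [Measure.restrict_apply_univ]
      exact hν' z ρ hρ
    refine le_trans (le_of_eq ?_) (h1.trans (by gcongr))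
    rw [setLIntegral_withDensity_eq_setLIntegral_mul σ (hval i) (hm hri).lintegral_prod_right'
      measurableSet_closedBall]
    refine setLIntegral_congr_fun measurableSet_closedBall fun s hs => ?_
    simp only [Pi.mul_apply, Set.indicator_of_mem (hR1 s hs _)]
    rw [mul_comm]
  have h3 : ∑ i, ∫⁻ p, R.indicator (r i) p ∂lam d k ≤ lam d k R := by
    rw [← lintegral_finsetSum _ fun i _ => (hr i).indicator hR, ← lintegral_indicator_one hR]
    refine lintegral_mono fun p => ?_
    by_cases hp : p ∈ R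
    · simpa only [Set.indicator_of_mem hp, Pi.one_apply] using hr1 p
    · simp [Set.indicator_of_notMem hp]
  calc _ ≤ ∫⁻ s in closedBall z ρ, ∑ i, (∫⁻ X, r i (X, lab X s) ∂rows d k) * val i s ∂σ :=
        lintegral_mono hG
    _ = ∑ i, ∫⁻ s in closedBall z ρ, (∫⁻ X, r i (X, lab X s) ∂rows d k) * val i s ∂σ :=
        lintegral_finsetSum _ fun i _ => (hm (hr i)).lintegral_prod_right'.mul (hval i)
    _ ≤ ∑ i, (b * c * ∫⁻ p, R.indicator (r i) p ∂lam d k +
        N * ENNReal.ofReal ρ ^ (k + a) / b ^ n) := Finset.sum_le_sum fun i _ => key i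
    _ = b * c * ∑ i, ∫⁻ p, R.indicator (r i) p ∂lam d k +
        Fintype.card I * (N * ENNReal.ofReal ρ ^ (k + a) / b ^ n) := by
        rw [Finset.sum_add_distrib, Finset.mul_sum, Finset.sum_const, Finset.card_univ,
          nsmul_eq_mul]
    _ ≤ b * c * (2 ^ (d + 1) * (K0 * 8) ^ k * ENNReal.ofReal ρ ^ k) +
        b ^ n * (N * ENNReal.ofReal ρ ^ (k + a) / b ^ n) := by
        gcongr
        exact h3.trans hR2
    _ = _ := by
        rw [ENNReal.mul_div_cancel (pow_ne_zero _ hb0) (ENNReal.pow_ne_top hb), hc]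
        ring

theorem rep_base {I : Type} [Fintype I] (val : I → E d → ℝ≥0∞) (j : ℕ) (i : I) :
    Rep val j (val i) := by
  classical
  refine ⟨fun i' _ => if i' = i then 1 else 0, fun _ => measurable_const, fun _ => by simp,
    fun s => ?_⟩
  simp

theorem rep_step {I B : Type} [Fintype I] [Fintype B] {val : I → E d → ℝ≥0∞} {j : ℕ}
    {G : B → E d → ℝ≥0∞} (hG : ∀ b, Rep val j (G b)) (w : B → E d × ℝ → ℝ≥0∞)
    (hw : ∀ b, Measurable (w b)) (hw1 : ∀ p, ∑ b, w b p ≤ 1) :
    Rep val (j + 1) fun s => ∑ b, (∫⁻ x, w b (x, ⟪x, s⟫) ∂stdGaussian (E d)) * G b s := by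
  choose r hr hr1 hG using hG
  refine ⟨fun i p => ∑ b, w b (p.1 0, p.2 0) * r b i (fun l => p.1 l.succ, fun l => p.2 l.succ),
    fun i => Finset.measurable_sum _ fun b _ => by fun_prop, fun p => ?_, fun s => ?_⟩
  · rw [Finset.sum_comm]
    refine le_trans (Finset.sum_le_sum fun b _ => ?_) (hw1 (p.1 0, p.2 0))
    rw [← Finset.mul_sum]
    exact mul_le_of_le_one_right' (hr1 b _)
  · have e : ∀ i, ∫⁻ X, ∑ b, w b (X 0, lab X s 0) *
        r b i (fun l => X l.succ, fun l => lab X s l.succ) ∂rows d (j + 1) =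
        ∑ b, (∫⁻ x, w b (x, ⟪x, s⟫) ∂stdGaussian (E d)) * ∫⁻ X, r b i (X, lab X s) ∂rows d j := by
      intro i
      rw [lintegral_finsetSum _ fun b _ => by fun_prop]
      refine Finset.sum_congr rfl fun b _ => ?_
      have h := (measurePreserving_piFinSuccAbove (fun _ : Fin (j + 1) => stdGaussian (E d)) 0).symm
      rw [← h.lintegral_comp_emb (MeasurableEquiv.measurableEmbedding _)]
      simp only [MeasurableEquiv.piFinSuccAbove_symm_apply, Fin.insertNthEquiv,
        Equiv.coe_fn_mk, Fin.insertNth_zero, Fin.cons_zero, Fin.cons_succ, cast_eq, lab]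
      exact lintegral_prod_mul (μ := stdGaussian (E d)) (ν := rows d j)
        (f := fun x => w b (x, ⟪x, s⟫)) (g := fun X => r b i (X, lab X s))
        (by fun_prop) (by fun_prop)
    simp only [e, Finset.sum_mul]
    rw [Finset.sum_comm]
    refine Finset.sum_le_sum fun b _ => ?_
    simp only [mul_assoc]
    rw [← Finset.mul_sum]
    exact mul_le_mul_right (hG b s) _

/-- the uniform measure on the sphere, as a measure on the whole space -/
noncomputable def sig (d : ℕ) : Measure (E d) := (unif d).map Subtype.val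

theorem sig_univ_le : sig d Set.univ ≤ 1 := by
  rw [sig, Measure.map_apply measurable_subtype_coe MeasurableSet.univ, unif, Set.preimage_univ,
    Measure.smul_apply, smul_eq_mul]
  exact ENNReal.inv_mul_le_one _

instance : IsFiniteMeasure (sig d) := ⟨sig_univ_le.trans_lt ENNReal.one_lt_top⟩

theorem cone_mem {u z₀ z : E d} {r t : ℝ} (hr : 0 < r) (ht : t ∈ Set.Ioo (0 : ℝ) 1) (h0 : ‖z₀‖ = 1)
    (hu : u ∈ closedBall z r) (hz₀ : z₀ ∈ closedBall z r) :
    t • u ∈ closedBall (((⌊t / r⌋₊ : ℝ) * r) • z₀) (3 * r) := by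
  have h4 := Nat.floor_le (div_nonneg ht.1.le hr.le)
  have h5 := Nat.lt_floor_add_one (t / r)
  rw [le_div_iff₀ hr] at h4
  rw [div_lt_iff₀ hr] at h5
  have h6 : ‖u - z₀‖ ≤ 2 * r := by
    rw [← dist_eq_norm]
    linarith [dist_triangle_right u z₀ z, mem_closedBall.1 hu, mem_closedBall.1 hz₀]
  have h7 : t • u - ((⌊t / r⌋₊ : ℝ) * r) • z₀ =
      t • (u - z₀) + (t - (⌊t / r⌋₊ : ℝ) * r) • z₀ := by
    rw [smul_sub, sub_smul, sub_add_sub_cancel]
  rw [mem_closedBall, dist_eq_norm, h7]
  refine (norm_add_le _ _).trans ?_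
  rw [norm_smul, norm_smul, h0, Real.norm_eq_abs, Real.norm_eq_abs,
    abs_of_pos ht.1, abs_of_nonneg (by linarith)]
  nlinarith [ht.1, ht.2, norm_nonneg (u - z₀)]

theorem sig_ball_le {p : ℕ} (hd : d = p + 1) (z : E d) {r : ℝ} (hr : 0 < r) :
    sig d (closedBall z r) ≤ 2 * 3 ^ d * ENNReal.ofReal r ^ p := by
  rcases le_total 1 r with h1 | h1
  · refine (measure_mono (Set.subset_univ _)).trans (sig_univ_le.trans ?_)
    exact one_le_mul (one_le_mul one_le_two (one_le_pow_of_one_le' (by norm_num) _))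
      (one_le_pow_of_one_le' (ENNReal.one_le_ofReal.2 h1) _)
  have hm : MeasurableSet ((Subtype.val : sphere (0 : E d) 1 → E d) ⁻¹' closedBall z r) :=
    measurable_subtype_coe measurableSet_closedBall
  rw [sig, Measure.map_apply measurable_subtype_coe measurableSet_closedBall]
  rcases Set.eq_empty_or_nonempty ((Subtype.val : sphere (0 : E d) 1 → E d) ⁻¹' closedBall z r)
    with h | ⟨z₀, hz₀⟩
  · rw [h, measure_empty]; exact zero_le
  set ω := (volume : Measure (E d)) (ball 0 1) with hω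
  have hω0 : ω ≠ 0 := (measure_ball_pos _ 0 one_pos).ne'
  have hω1 : ω ≠ ∞ := measure_ball_lt_top.ne
  have hd0 : (d : ℝ≥0∞) ≠ 0 := by rw [hd]; simp
  rw [unif, Measure.smul_apply, smul_eq_mul, Measure.toSphere_apply' _ hm,
    Measure.toSphere_apply_univ, finrank_euclideanSpace_fin,
    ENNReal.inv_mul_le_iff (mul_ne_zero hd0 hω0) (ENNReal.mul_ne_top (by simp) hω1), mul_assoc]
  refine mul_le_mul_right ?_ _
  have h2 : Set.Ioo (0 : ℝ) 1 • (Subtype.val ''
      ((Subtype.val : sphere (0 : E d) 1 → E d) ⁻¹' closedBall z r)) ⊆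
      ⋃ j ∈ Finset.range (⌊1 / r⌋₊ + 1), closedBall ((j * r : ℝ) • (z₀ : E d)) (3 * r) := by
    rintro _ ⟨t, ht, _, ⟨u, hu, rfl⟩, rfl⟩
    refine Set.mem_biUnion (x := ⌊t / r⌋₊) (Finset.mem_range.2 (Nat.lt_succ_of_le
      (Nat.floor_mono (div_le_div_of_nonneg_right ht.2.le hr.le)))) ?_
    exact cone_mem hr ht (norm_eq_of_mem_sphere z₀) hu hz₀
  refine (measure_mono h2).trans ((measure_biUnion_finset_le _ _).trans ?_)
  simp only [Measure.addHaar_closedBall _ _ (show 0 ≤ 3 * r by positivity),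
    finrank_euclideanSpace_fin, Finset.sum_const, Finset.card_range, nsmul_eq_mul]
  rw [← mul_assoc, mul_comm ω]
  refine mul_le_mul_left ?_ _
  have e2 : (2 : ℝ≥0∞) = ENNReal.ofReal 2 := by simp
  have e3 : (3 : ℝ≥0∞) = ENNReal.ofReal 3 := by simp
  rw [e2, e3, ← ENNReal.ofReal_natCast, ← ENNReal.ofReal_pow (by positivity),
    ← ENNReal.ofReal_pow (by positivity), ← ENNReal.ofReal_mul (by positivity),
    ← ENNReal.ofReal_mul (by positivity), ← ENNReal.ofReal_mul (by positivity)]
  refine ENNReal.ofReal_le_ofReal ?_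
  have h8 : (⌊1 / r⌋₊ : ℝ) * r ≤ 1 := by
    have := Nat.floor_le (show 0 ≤ 1 / r by positivity)
    rwa [le_div_iff₀ hr] at this
  push_cast
  calc _ = (((⌊1 / r⌋₊ : ℝ) + 1) * r) * (3 ^ d * r ^ p) := by rw [mul_pow, hd]; ring
    _ ≤ 2 * (3 ^ d * r ^ p) := by gcongr; linarith
    _ = _ := by ring

theorem dist_le_of_arccos {u s : E d} (hu : ‖u‖ = 1) (hs : ‖s‖ = 1) {ε : ℝ}
    (h : Real.arccos ⟪u, s⟫ ≤ ε) : dist s u ≤ ε := by
  have h1 := abs_real_inner_le_norm u s
  rw [hu, hs, mul_one, abs_le] at h1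
  have h2 := Real.cos_arccos h1.1 h1.2
  have h3 := Real.one_sub_sq_div_two_le_cos (x := Real.arccos ⟪u, s⟫)
  have h4 := Real.arccos_nonneg ⟪u, s⟫
  rw [dist_comm, dist_eq_norm]
  refine (pow_le_pow_iff_left₀ (norm_nonneg _) (h4.trans h) two_ne_zero).1 ?_
  rw [norm_sub_sq_real, hu, hs]
  nlinarith

variable {Q : Type} [Fintype Q] [MeasurableSpace Q] [DiscreteMeasurableSpace Q] (L : Learner d Q)
  (ε : ℝ)

/-- the value function -/
noncomputable def val (n t : ℕ) (q : Q × Bool) (s : E d) : ℝ≥0∞ :=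
  L.run s n t q {u | Real.arccos ⟪(u : E d), s⟫ ≤ ε}

theorem measurableSet_good (s : E d) :
    MeasurableSet {u : sphere (0 : E d) 1 | Real.arccos ⟪(u : E d), s⟫ ≤ ε} :=
  measurableSet_le (by fun_prop) measurable_const

omit [Fintype Q] [DiscreteMeasurableSpace Q] in
theorem val_stop (n t : ℕ) {q : Q × Bool} (hq : q.2 = true) : val L ε n t q = val L ε 0 t q := by
  funext s
  cases n <;> simp [val, Learner.run, hq]

theorem val_succ (n t : ℕ) {q : Q × Bool} (hq : ¬ q.2 = true) : val L ε (n + 1) t q = fun s =>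
    ∑ q', (∫⁻ x, L.step t (q.1, x, ⟪x, s⟫) {q'} ∂stdGaussian (E d)) * val L ε n (t + 1) q' s := by
  funext s
  have hm : Measurable fun x : E d => L.step t (q.1, x, ⟪x, s⟫) :=
    (L.step t).measurable.comp (by fun_prop)
  simp only [val, Learner.run, if_neg hq]
  rw [Measure.bind_apply (measurableSet_good ε s) Measurable.of_discrete.aemeasurable,
    lintegral_fintype]
  refine Finset.sum_congr rfl fun q' _ => ?_
  rw [Measure.bind_apply (measurableSet_singleton q') hm.aemeasurable, mul_comm]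

theorem sum_step (t : ℕ) (p : Q × E d × ℝ) : ∑ q', L.step t p {q'} = 1 := by
  have := L.step_markov t
  rw [sum_measure_singleton, Finset.coe_univ, measure_univ]

theorem measurable_val (n : ℕ) : ∀ t q, Measurable (val L ε n t q) := by
  induction n with
  | zero =>
    intro t q
    have := L.out_markov t
    have h : MeasurableSet {p : E d × sphere (0 : E d) 1 | Real.arccos ⟪(p.2 : E d), p.1⟫ ≤ ε} :=
      measurableSet_le (by fun_prop) measurable_const
    exact measurable_measure_prodMk_left (ν := L.out t q.1) h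
  | succ n ih =>
    intro t q
    by_cases hq : q.2 = true
    · rw [val_stop L ε _ t hq, ← val_stop L ε n t hq]
      exact ih t q
    · rw [val_succ L ε n t hq]
      refine Finset.measurable_sum _ fun q' _ => Measurable.mul ?_ (ih _ _)
      have h : Measurable fun p : E d × E d => L.step t (q.1, p.2, ⟪p.2, p.1⟫) {q'} :=
        ((L.step t).measurable_coe (measurableSet_singleton q')).comp (by fun_prop)
      exact h.lintegral_prod_right'

theorem val_le_one (n : ℕ) : ∀ t q s, val L ε n t q s ≤ 1 := by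
  induction n with
  | zero =>
    intro t q s
    have := L.out_markov t
    exact prob_le_one (μ := L.out t q.1)
  | succ n ih =>
    intro t q s
    by_cases hq : q.2 = true
    · rw [val_stop L ε _ t hq, ← val_stop L ε n t hq]
      exact ih t q s
    · rw [val_succ L ε n t hq]
      refine le_trans (Finset.sum_le_sum fun q' _ => mul_le_of_le_one_right' (ih _ _ _)) ?_
      have hm : ∀ q', Measurable fun x : E d => L.step t (q.1, x, ⟪x, s⟫) {q'} := fun q' =>
        ((L.step t).measurable_coe (measurableSet_singleton q')).comp (by fun_prop)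
      rw [← lintegral_finsetSum _ fun q' _ => hm q']
      simp only [sum_step, lintegral_const, measure_univ, mul_one, le_refl]

theorem rep_val (m t : ℕ) : ∀ j e i : ℕ, e ≤ j → i + j ≤ k → ∀ q,
    Rep (fun p : (Q × Bool) × Fin (k + 1) => val L ε m (t + p.2) p.1) j
      (val L ε (m + e) (t + i) q) := by
  intro j
  induction j with
  | zero =>
    intro e i he hi q
    obtain rfl : e = 0 := by omega
    exact rep_base (fun p : (Q × Bool) × Fin (k + 1) => val L ε m (t + p.2) p.1) 0
      (q, ⟨i, by omega⟩)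
  | succ j ih =>
    intro e i he hi q
    have hb := rep_base (fun p : (Q × Bool) × Fin (k + 1) => val L ε m (t + p.2) p.1) (j + 1)
      (q, ⟨i, by omega⟩)
    rcases e with _ | e
    · exact hb
    by_cases hq : q.2 = true
    · rw [val_stop L ε _ _ hq, ← val_stop L ε m _ hq]
      exact hb
    · rw [← add_assoc, val_succ L ε _ _ hq]
      exact rep_step (fun q' => ih e (i + 1) (by omega) (by omega) q')
        (fun q' p => L.step (t + i) (q.1, p) {q'})
        (fun q' => ((L.step (t + i)).measurable_coe (measurableSet_singleton q')).comp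
          measurable_prodMk_left) (fun p => (sum_step L _ _).le)

omit [Fintype Q] [DiscreteMeasurableSpace Q] in
theorem morF_zero {a e : ℕ} (hd : d = a + e + 1) (hε : 0 < ε) (t : ℕ) (q : Q × Bool) :
    MorF a (sig d) (val L ε 0 t q) (2 * 3 ^ d * ENNReal.ofReal ε ^ e) := by
  intro z ρ hρ
  have := L.out_markov t
  have h : MeasurableSet {p : E d × sphere (0 : E d) 1 | Real.arccos ⟪(p.2 : E d), p.1⟫ ≤ ε} :=
    measurableSet_le (by fun_prop) measurable_const
  have h1 := Measure.prod_apply (μ := (sig d).restrict (closedBall z ρ)) (ν := L.out t q.1) h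
  refine le_trans (le_of_eq h1.symm) ?_
  rw [Measure.prod_apply_symm h]
  refine le_trans (lintegral_mono (g := fun _ => 2 * 3 ^ d * ENNReal.ofReal ε ^ e *
    ENNReal.ofReal ρ ^ a) fun u => ?_) (by simp)
  have h2 : (sig d).restrict (closedBall z ρ) ((fun s => (s, u)) ⁻¹'
      {p : E d × sphere (0 : E d) 1 | Real.arccos ⟪(p.2 : E d), p.1⟫ ≤ ε}) ≤
      sig d (closedBall (u : E d) ε ∩ closedBall z ρ) := by
    rw [Measure.restrict_apply (measurable_prodMk_right h), sig,
      Measure.map_apply measurable_subtype_coe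
        ((measurable_prodMk_right h).inter measurableSet_closedBall),
      Measure.map_apply measurable_subtype_coe
        (measurableSet_closedBall.inter measurableSet_closedBall)]
    exact measure_mono fun s hs =>
      ⟨dist_le_of_arccos (norm_eq_of_mem_sphere u) (norm_eq_of_mem_sphere s) hs.1, hs.2⟩
  refine h2.trans ?_
  simp only [mul_assoc (2 * 3 ^ d : ℝ≥0∞)]
  rcases le_total ρ ε with h3 | h3
  · refine (measure_mono Set.inter_subset_right).trans ((sig_ball_le hd z hρ).trans ?_)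
    rw [pow_add (ENNReal.ofReal ρ), mul_comm (ENNReal.ofReal ρ ^ a)]
    gcongr
  · refine (measure_mono Set.inter_subset_left).trans ((sig_ball_le hd _ hε).trans ?_)
    rw [pow_add (ENNReal.ofReal ε), mul_comm (ENNReal.ofReal ε ^ a)]
    gcongr

theorem morF_val {n a e : ℕ} (hd : d = k + a + e + 1) (hε : 0 < ε) (ha : n + 1 ≤ a) {b C : ℝ≥0∞}
    (hb0 : b ≠ 0) (hb : b ≠ ∞) (hC : C ≠ ∞)
    (hI : (Fintype.card ((Q × Bool) × Fin (k + 1)) : ℝ≥0∞) ≤ b ^ n)
    (hC' : b * 8 ^ (k + a) * (2 ^ (d + 1) * (K0 * 8) ^ k) + 1 ≤ C) (J : ℕ) :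
    ∀ T ≤ k * J, ∀ t q,
      MorF (k + a) (sig d) (val L ε T t q) (C ^ J * (2 * 3 ^ d * ENNReal.ofReal ε ^ e)) := by
  have hC0 : C ≠ 0 := (zero_lt_one.trans_le (le_add_self.trans hC')).ne'
  induction J with
  | zero =>
    intro T hT t q
    obtain rfl : T = 0 := by omega
    rw [pow_zero, one_mul]
    exact morF_zero L ε hd hε t q
  | succ J ih =>
    intro T hT t q z ρ hρ
    have h1 := rep_val (k := k) L ε (T - k) t k (min T k) 0 (min_le_right _ _) (by omega) q
    rw [show T - k + min T k = T by omega, add_zero] at h1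
    have h2 := block_le (σ := sig d) (fun _ => measurable_val L ε _ _ _)
      (fun _ => val_le_one L ε _ _ _) ha
      (N := C ^ J * (2 * 3 ^ d * ENNReal.ofReal ε ^ e))
      (mul_ne_zero (pow_ne_zero _ hC0) (mul_ne_zero (mul_ne_zero two_ne_zero
        (pow_ne_zero _ (by norm_num))) (pow_ne_zero _ (ENNReal.ofReal_pos.2 hε).ne')))
      (ENNReal.mul_ne_top (ENNReal.pow_ne_top hC) (ENNReal.mul_ne_top (ENNReal.mul_ne_top
        (by norm_num) (ENNReal.pow_ne_top (by norm_num))) (ENNReal.pow_ne_top ENNReal.ofReal_ne_top)))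
      hb0 hb hI (fun p => ih (T - k) (by rw [mul_add_one] at hT; omega) _ _) h1 z ρ hρ
    refine h2.trans ?_
    rw [pow_succ' C, mul_assoc C]
    gcongr

theorem success_le {a : ℕ} {T : ℕ} {N : ℝ≥0∞} (h : ∀ q, MorF a (sig d) (val L ε T 0 q) N) :
    L.success T ε ≤ N := by
  have := L.init_prob
  have e : ∀ s : sphere (0 : E d) 1, (L.init.bind (L.run s T 0))
      {u | Real.arccos ⟪(u : E d), (s : E d)⟫ ≤ ε} = ∑ q, val L ε T 0 q s * L.init {q} := by
    intro s
    rw [Measure.bind_apply (measurableSet_good ε _) Measurable.of_discrete.aemeasurable,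
      lintegral_fintype]
    rfl
  have hm : ∀ q, Measurable fun s : sphere (0 : E d) 1 => val L ε T 0 q s := fun q =>
    (measurable_val L ε T 0 q).comp measurable_subtype_coe
  rw [Learner.success, lintegral_congr e,
    lintegral_finsetSum _ fun q _ => (hm q).mul_const _]
  calc _ ≤ ∑ q, N * L.init {q} := by
        refine Finset.sum_le_sum fun q _ => ?_
        rw [lintegral_mul_const _ (hm q)]
        refine mul_le_mul_left ?_ _
        have h1 := h q 0 1 one_pos
        rw [ENNReal.ofReal_one, one_pow, mul_one, sig,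
          setLIntegral_map measurableSet_closedBall (measurable_val L ε T 0 q)
            measurable_subtype_coe,
          Set.preimage_eq_univ_iff.2 (by rw [Subtype.range_coe]; exact sphere_subset_closedBall),
          Measure.restrict_univ] at h1
        exact h1
    _ = N := by rw [← Finset.mul_sum, sum_measure_singleton, Finset.coe_univ, measure_univ, mul_one]

end Vale.Agent.P309
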