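import Vale.Agent.P309.Gauss

namespace Vale.Agent.P309

open MeasureTheory ProbabilityTheory Metric
open scoped RealInnerProductSpace ENNReal NNReal

variable {d : ℕ}

/-- Morrey type bound for a measure -/
def Mor (a : ℕ) (ν : Measure (E d)) (N : ℝ≥0∞) : Prop :=
  ∀ (z : E d) (ρ : ℝ), 0 < ρ → ν (closedBall z ρ) ≤ N * ENNReal.ofReal ρ ^ a

/-- a tube around an affine subspace -/
def tube (L : List (E d)) (s₁ : E d) (R η : ℝ) : Set (E d) :=
  {s | ‖s - s₁‖ ≤ R ∧ dspan L (s - s₁) ≤ η}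

theorem measurableSet_tube (L : List (E d)) (s₁ : E d) (R η : ℝ) :
    MeasurableSet (tube L s₁ R η) := by
  unfold tube dspan
  rw [Set.ofPred_and]
  exact (measurableSet_le (by fun_prop) measurable_const).inter
    (measurableSet_le (by fun_prop) measurable_const)

theorem tube_le {a n : ℕ} {ν : Measure (E d)} [IsFiniteMeasure ν] {N : ℝ≥0∞} (hν : Mor a ν N)
    (L : List (E d)) (hL : L.length ≤ n) (s₁ : E d) {R η : ℝ} (hη : 0 < η) (hR : η ≤ R) :
    ν (tube L s₁ R η) ≤ ENNReal.ofReal (2 * R / η) ^ n * (N * ENNReal.ofReal (2 * η) ^ a) := by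
  classical
  set U := Submodule.span ℝ {u | u ∈ L} with hU
  have hj : Module.finrank ℝ U ≤ n := by
    have h1 : {u | u ∈ L} = (L.toFinset : Set (E d)) := by ext; simp
    rw [hU, h1]
    exact (finrank_span_finset_le_card _).trans ((List.toFinset_card_le L).trans hL)
  set j := Module.finrank ℝ U
  let m : Measure U := volume
  let A : Set (E d × U) := {p | ‖p.2‖ ≤ 2 * R ∧ dist p.1 (s₁ + p.2) ≤ 2 * η}
  have hA : MeasurableSet A := by
    simp only [A]
    rw [Set.ofPred_and]
    exact (measurableSet_le (by fun_prop) measurable_const).inter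
      (measurableSet_le (by fun_prop) measurable_const)
  have h1 : ν (tube L s₁ R η) * (ENNReal.ofReal (η ^ j) * m (ball 0 1)) ≤ (ν.prod m) A := by
    rw [Measure.prod_apply hA, ← lintegral_indicator_one (measurableSet_tube _ _ _ _),
      ← lintegral_mul_const _ (measurable_one.indicator (measurableSet_tube _ _ _ _))]
    refine lintegral_mono fun s => ?_
    by_cases hs : s ∈ tube L s₁ R η
    · rw [Set.indicator_of_mem hs, Pi.one_apply, one_mul,
        ← Measure.addHaar_closedBall m (U.orthogonalProjectionOnto (s - s₁)) hη.le]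
      refine measure_mono fun u hu => ?_
      rw [mem_closedBall, dist_eq_norm] at hu
      have h2 : ‖U.orthogonalProjectionOnto (s - s₁)‖ ≤ R :=
        (U.norm_orthogonalProjectionOnto_apply_le _).trans hs.1
      refine ⟨?_, ?_⟩
      · have := norm_add_le (u - U.orthogonalProjectionOnto (s - s₁)) (U.orthogonalProjectionOnto (s - s₁))
        rw [sub_add_cancel] at this
        change ‖u‖ ≤ 2 * R
        linarith
      · have h3 : ‖(s - s₁) - U.starProjection (s - s₁)‖ ≤ η := hs.2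
        have h4 : ‖(u : E d) - U.starProjection (s - s₁)‖ ≤ η := hu
        have h5 := norm_sub_le ((s - s₁) - U.starProjection (s - s₁))
          ((u : E d) - U.starProjection (s - s₁))
        rw [sub_sub_sub_cancel_right, sub_sub] at h5
        change dist s (s₁ + u) ≤ 2 * η
        rw [dist_eq_norm]
        linarith
    · rw [Set.indicator_of_notMem hs, zero_mul]
      exact zero_le
  have h2 : (ν.prod m) A ≤
      (ENNReal.ofReal ((2 * R) ^ j) * m (ball 0 1)) * (N * ENNReal.ofReal (2 * η) ^ a) := by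
    rw [Measure.prod_apply_symm hA, ← Measure.addHaar_closedBall m 0 (by linarith),
      ← lintegral_indicator_one measurableSet_closedBall,
      ← lintegral_mul_const _ (measurable_one.indicator measurableSet_closedBall)]
    refine lintegral_mono fun u => ?_
    by_cases hu : u ∈ closedBall (0 : U) (2 * R)
    · rw [Set.indicator_of_mem hu, Pi.one_apply, one_mul]
      exact le_trans (measure_mono fun s hs => hs.2) (hν (s₁ + u) (2 * η) (by linarith))
    · refine le_of_eq_of_le (measure_mono_null (t := ∅) (fun s hs => hu ?_) measure_empty) zero_le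
      exact mem_closedBall_zero_iff.2 hs.1
  have hω0 : m (ball 0 1) ≠ 0 := (measure_ball_pos m 0 one_pos).ne'
  have hω1 : m (ball 0 1) ≠ ∞ := measure_ball_lt_top.ne
  have h3 : ENNReal.ofReal ((2 * R) ^ j) ≤
      ENNReal.ofReal (2 * R / η) ^ n * ENNReal.ofReal (η ^ j) := by
    have h4 : 1 ≤ 2 * R / η := by rw [le_div_iff₀ hη]; linarith
    rw [← ENNReal.ofReal_pow (by linarith), ← ENNReal.ofReal_mul (by positivity)]
    refine ENNReal.ofReal_le_ofReal ?_
    calc (2 * R) ^ j = (2 * R / η) ^ j * η ^ j := by rw [← mul_pow, div_mul_cancel₀ _ hη.ne']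
      _ ≤ _ := by gcongr
  have h5 : ENNReal.ofReal (η ^ j) * m (ball 0 1) ≠ 0 :=
    mul_ne_zero (ENNReal.ofReal_pos.2 (by positivity)).ne' hω0
  refine (ENNReal.mul_le_mul_iff_left h5 (ENNReal.mul_ne_top ENNReal.ofReal_ne_top hω1)).1
    ((h1.trans h2).trans ?_)
  calc _ ≤ (ENNReal.ofReal (2 * R / η) ^ n * ENNReal.ofReal (η ^ j) * m (ball 0 1)) *
        (N * ENNReal.ofReal (2 * η) ^ a) := by gcongr
    _ = _ := by ring

theorem exists_scale {D η ρ : ℝ} (hρ : 0 < ρ) (hη : 0 < η) (hD : D ≤ 2 * ρ) :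
    ∃ i : ℕ, D ≤ 2 * ρ / 2 ^ i ∧ (ρ / 2 ^ i ≤ D ∨ 1 ≤ η * 2 ^ i / ρ) := by
  classical
  have h : ∃ i : ℕ, ρ / 2 ^ i ≤ D ∨ 1 ≤ η * 2 ^ i / ρ := by
    obtain ⟨i, hi⟩ := pow_unbounded_of_one_lt (ρ / η) (one_lt_two (α := ℝ))
    refine ⟨i, Or.inr ?_⟩
    rw [div_lt_iff₀ hη] at hi
    rw [le_div_iff₀ hρ]
    linarith
  refine ⟨Nat.find h, ?_, Nat.find_spec h⟩
  rcases hi : Nat.find h with _ | i
  · simpa using hD
  · have h1 := Nat.find_min h (m := i) (by omega)
    have h2 := not_le.1 (not_or.1 h1).1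
    have : 2 * ρ / 2 ^ (i + 1) = ρ / 2 ^ i := by rw [pow_succ]; field_simp
    linarith

theorem slab_integral_le {k n a : ℕ} (ha : n + 1 ≤ a) {ν : Measure (E d)} [IsFiniteMeasure ν]
    {N : ℝ≥0∞} (hν : Mor (k + a) ν N) {s₁ : E d} {ρ η : ℝ} (hρ : 0 < ρ) (hη : 0 < η)
    (hs : ∀ᵐ s ∂ν, ‖s - s₁‖ ≤ 2 * ρ) (L : List (E d)) (hL : L.length ≤ n) :
    ∫⁻ s, stdGaussian (E d) (slab η ((s - s₁) :: L)) ^ k ∂ν ≤ stdGaussian (E d) (slab η L) ^ k *
      (ENNReal.ofReal η ^ k * (8 ^ (k + a) * N * ENNReal.ofReal ρ ^ a)) := by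
  have h1 : ∀ᵐ s ∂ν, stdGaussian (E d) (slab η ((s - s₁) :: L)) ^ k ≤
      ∑' i : ℕ, (tube L s₁ (2 * ρ) (2 * ρ / 2 ^ i)).indicator
        (fun _ => stdGaussian (E d) (slab η L) ^ k * ENNReal.ofReal (η * 2 ^ i / ρ) ^ k) s := by
    filter_upwards [hs] with s hs
    have hD : dspan L (s - s₁) ≤ 2 * ρ := by
      refine le_trans ?_ hs
      unfold dspan
      rw [← Submodule.starProjection_orthogonal_val]
      exact Submodule.norm_starProjection_apply_le _ _
    obtain ⟨i, hi1, hi2⟩ := exists_scale hρ hη hD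
    refine le_trans ?_ (ENNReal.le_tsum i)
    rw [Set.indicator_of_mem (show s ∈ tube L s₁ (2 * ρ) (2 * ρ / 2 ^ i) from ⟨hs, hi1⟩),
      ← mul_pow]
    refine pow_le_pow_left' ?_ k
    rcases hi2 with h | h
    · refine (slab_cons_le L _ (by positivity) h hη.le).trans (le_of_eq ?_)
      congr 2
      field_simp
    · exact le_trans (measure_mono fun x hx v hv => hx v (List.mem_cons_of_mem _ hv))
        (le_mul_of_one_le_right zero_le (ENNReal.one_le_ofReal.2 h))
  refine (lintegral_mono_ae h1).trans ?_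
  rw [lintegral_tsum fun i => (measurable_const.indicator (measurableSet_tube _ _ _ _)).aemeasurable]
  have h2 : ∀ i : ℕ, ∫⁻ s, (tube L s₁ (2 * ρ) (2 * ρ / 2 ^ i)).indicator
      (fun _ => stdGaussian (E d) (slab η L) ^ k * ENNReal.ofReal (η * 2 ^ i / ρ) ^ k) s ∂ν ≤
      (stdGaussian (E d) (slab η L) ^ k * N *
        ENNReal.ofReal (η ^ k * (2 ^ n * 4 ^ (k + a)) * ρ ^ a)) * (2⁻¹ : ℝ≥0∞) ^ i := by
    intro i
    have hi : (1 : ℝ) ≤ 2 ^ i := one_le_pow₀ one_le_two
    rw [lintegral_indicator_const (measurableSet_tube _ _ _ _)]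
    have h3 := tube_le hν L hL s₁ (R := 2 * ρ) (η := 2 * ρ / 2 ^ i) (by positivity)
      (div_le_self (by positivity) hi)
    have h4 : ENNReal.ofReal (η * 2 ^ i / ρ) ^ k * ENNReal.ofReal (2 * (2 * ρ) / (2 * ρ / 2 ^ i)) ^ n *
        ENNReal.ofReal (2 * (2 * ρ / 2 ^ i)) ^ (k + a) ≤
        ENNReal.ofReal (η ^ k * (2 ^ n * 4 ^ (k + a)) * ρ ^ a) * (2⁻¹ : ℝ≥0∞) ^ i := by
      have e : (2⁻¹ : ℝ≥0∞) = ENNReal.ofReal (2⁻¹) := by
        rw [ENNReal.ofReal_inv_of_pos two_pos]; simp
      rw [e, ← ENNReal.ofReal_pow (by positivity), ← ENNReal.ofReal_pow (by positivity),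
        ← ENNReal.ofReal_pow (by positivity), ← ENNReal.ofReal_pow (by positivity),
        ← ENNReal.ofReal_mul (by positivity), ← ENNReal.ofReal_mul (by positivity),
        ← ENNReal.ofReal_mul (by positivity)]
      refine ENNReal.ofReal_le_ofReal ?_
      set y : ℝ := 2 ^ i with hy
      have hy0 : 0 < y := by positivity
      have e1 : 2 * (2 * ρ) / (2 * ρ / y) = 2 * y := by field_simp
      have e2 : 2 * (2 * ρ / y) = 4 * ρ / y := by ring
      have e3 : (2⁻¹ : ℝ) ^ i = y⁻¹ := by rw [hy, inv_pow]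
      have e4 : y ^ n * y ≤ y ^ a := by rw [← pow_succ]; exact pow_le_pow_right₀ hi ha
      rw [e1, e2, e3]
      have e5 : (η * y / ρ) ^ k * (2 * y) ^ n * (4 * ρ / y) ^ (k + a) =
          η ^ k * (2 ^ n * 4 ^ (k + a)) * ρ ^ a * (y ^ n / y ^ a) := by
        simp only [div_pow, mul_pow, pow_add]
        field_simp
      rw [e5]
      gcongr
      rw [div_le_iff₀ (by positivity), inv_mul_eq_div, le_div_iff₀ hy0]
      exact e4
    calc _ ≤ stdGaussian (E d) (slab η L) ^ k * ENNReal.ofReal (η * 2 ^ i / ρ) ^ k *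
          (ENNReal.ofReal (2 * (2 * ρ) / (2 * ρ / 2 ^ i)) ^ n *
            (N * ENNReal.ofReal (2 * (2 * ρ / 2 ^ i)) ^ (k + a))) := by gcongr
      _ = stdGaussian (E d) (slab η L) ^ k * N * (ENNReal.ofReal (η * 2 ^ i / ρ) ^ k *
          ENNReal.ofReal (2 * (2 * ρ) / (2 * ρ / 2 ^ i)) ^ n *
          ENNReal.ofReal (2 * (2 * ρ / 2 ^ i)) ^ (k + a)) := by ring
      _ ≤ _ := by rw [mul_assoc _ _ ((2⁻¹ : ℝ≥0∞) ^ i)]; gcongr
  refine (ENNReal.tsum_le_tsum h2).trans ?_
  rw [ENNReal.tsum_mul_left, ENNReal.tsum_geometric, ENNReal.one_sub_inv_two, inv_inv]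
  have h5 : ENNReal.ofReal (η ^ k * (2 ^ n * 4 ^ (k + a)) * ρ ^ a) * 2 ≤
      ENNReal.ofReal η ^ k * 8 ^ (k + a) * ENNReal.ofReal ρ ^ a := by
    have e : (2 : ℝ≥0∞) = ENNReal.ofReal 2 := by simp
    have e' : (8 : ℝ≥0∞) = ENNReal.ofReal 8 := by simp
    rw [e, e', ← ENNReal.ofReal_pow (by positivity), ← ENNReal.ofReal_pow (by positivity),
      ← ENNReal.ofReal_pow (by positivity), ← ENNReal.ofReal_mul (by positivity),
      ← ENNReal.ofReal_mul (by positivity), ← ENNReal.ofReal_mul (by positivity)]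
    refine ENNReal.ofReal_le_ofReal ?_
    have h6 : (2 : ℝ) ^ n * 2 ≤ 2 ^ (k + a) := by
      rw [← pow_succ]; exact pow_le_pow_right₀ one_le_two (by omega)
    calc _ = η ^ k * ((2 ^ n * 2) * 4 ^ (k + a)) * ρ ^ a := by ring
      _ ≤ η ^ k * (2 ^ (k + a) * 4 ^ (k + a)) * ρ ^ a := by gcongr
      _ = _ := by rw [← mul_pow]; norm_num
  calc _ = stdGaussian (E d) (slab η L) ^ k * N *
        (ENNReal.ofReal (η ^ k * (2 ^ n * 4 ^ (k + a)) * ρ ^ a) * 2) := by ring
    _ ≤ stdGaussian (E d) (slab η L) ^ k * N *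
        (ENNReal.ofReal η ^ k * 8 ^ (k + a) * ENNReal.ofReal ρ ^ a) := by gcongr
    _ = _ := by ring

/-- the law of `k` rows -/
noncomputable abbrev rows (d k : ℕ) : Measure (Fin k → E d) := Measure.pi fun _ => stdGaussian (E d)

/-- the signals that are nearly indistinguishable from `s₁` -/
def near {k : ℕ} (η : ℝ) (s₁ : E d) (X : Fin k → E d) : Set (E d) :=
  {s | ∀ l, |⟪X l, s - s₁⟫| ≤ η}

theorem measurableSet_near {k : ℕ} (η : ℝ) :
    MeasurableSet {p : (E d × (Fin k → E d)) × E d | p.2 ∈ near η p.1.1 p.1.2} := by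
  simp only [near, Set.mem_ofPred_eq]
  rw [Set.ofPred_forall]
  exact MeasurableSet.iInter fun l => measurableSet_le (by fun_prop) measurable_const

theorem measurable_near {k : ℕ} (η : ℝ) (ν : Measure (E d)) [SFinite ν] :
    Measurable fun p : E d × (Fin k → E d) => ν (near η p.1 p.2) :=
  measurable_measure_prodMk_left (ν := ν) (measurableSet_near η)

theorem measurable_near' {k : ℕ} (η : ℝ) (ν : Measure (E d)) [SFinite ν] (s₁ : E d) :
    Measurable fun X : Fin k → E d => ν (near η s₁ X) := by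
  have h := (measurable_near (k := k) η ν).comp (measurable_prodMk_left (x := s₁))
  exact h

theorem measurableSet_near' {k : ℕ} (η : ℝ) (s₁ : E d) :
    MeasurableSet {p : (Fin k → E d) × E d | p.2 ∈ near η s₁ p.1} := by
  simp only [near, Set.mem_ofPred_eq]
  rw [Set.ofPred_forall]
  exact MeasurableSet.iInter fun l => measurableSet_le (by fun_prop) measurable_const

theorem measurable_slab_cons (η : ℝ) (s₁ : E d) (L : List (E d)) :
    Measurable fun s : E d => stdGaussian (E d) (slab η ((s - s₁) :: L)) := by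
  have h4 : MeasurableSet {p : E d × E d | p.2 ∈ slab η ((p.1 - s₁) :: L)} := by
    have : {p : E d × E d | p.2 ∈ slab η ((p.1 - s₁) :: L)} =
        {p | |⟪p.2, p.1 - s₁⟫| ≤ η} ∩ Prod.snd ⁻¹' slab η L := by
      ext p; simp [slab]
    rw [this]
    exact (measurableSet_le (by fun_prop) measurable_const).inter
      (measurable_snd (measurableSet_slab η L))
  exact measurable_measure_prodMk_left h4

theorem moment_step {k : ℕ} (ν : Measure (E d)) [IsFiniteMeasure ν] (s₁ : E d) (η : ℝ) (m : ℕ)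
    (L : List (E d)) :
    ∫⁻ X in Set.univ.pi fun _ => slab η L, ν (near η s₁ X) ^ (m + 1) ∂rows d k =
      ∫⁻ s, ∫⁻ X in Set.univ.pi fun _ => slab η ((s - s₁) :: L),
        ν (near η s₁ X) ^ m ∂rows d k ∂ν := by
  have hm := measurable_near' (k := k) η ν s₁
  have hn := measurableSet_near' (k := k) η s₁
  have hpi : ∀ L : List (E d), MeasurableSet (Set.univ.pi fun _ : Fin k => slab η L) :=
    fun L => MeasurableSet.univ_pi fun _ => measurableSet_slab η L
  let f : (Fin k → E d) → E d → ℝ≥0∞ := fun X s =>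
    (near η s₁ X).indicator (fun _ => ν (near η s₁ X) ^ m) s
  have hf : Measurable (Function.uncurry f) := by
    have h := ((hm.comp (measurable_fst (β := E d))).pow_const m).indicator hn
    exact h
  have e : ∀ X : Fin k → E d, ν (near η s₁ X) ^ (m + 1) = ∫⁻ s, f X s ∂ν := by
    intro X
    have h0 : MeasurableSet (near η s₁ X) := measurable_prodMk_left hn
    rw [pow_succ, ← lintegral_indicator_const h0]
  rw [lintegral_congr e, lintegral_lintegral_swap hf.aemeasurable]
  refine lintegral_congr fun s => ?_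
  rw [← lintegral_indicator (hpi _), ← lintegral_indicator (hpi _)]
  refine lintegral_congr fun X => ?_
  by_cases h1 : X ∈ Set.univ.pi fun _ : Fin k => slab η L
  · by_cases h2 : s ∈ near η s₁ X
    · have h3 : X ∈ Set.univ.pi fun _ : Fin k => slab η ((s - s₁) :: L) := fun l _ v hv => by
        rcases List.mem_cons.1 hv with rfl | hv
        · exact h2 l
        · exact h1 l trivial v hv
      rw [Set.indicator_of_mem h1, Set.indicator_of_mem h3]
      exact Set.indicator_of_mem h2 _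
    · have h3 : X ∉ Set.univ.pi fun _ : Fin k => slab η ((s - s₁) :: L) :=
        fun h => h2 fun l => h l trivial _ List.mem_cons_self
      rw [Set.indicator_of_mem h1, Set.indicator_of_notMem h3]
      exact Set.indicator_of_notMem h2 _
  · have h3 : X ∉ Set.univ.pi fun _ : Fin k => slab η ((s - s₁) :: L) :=
      fun h => h1 fun l _ v hv => h l trivial v (List.mem_cons_of_mem _ hv)
    rw [Set.indicator_of_notMem h1, Set.indicator_of_notMem h3]

theorem moment_le {k n a : ℕ} (ha : n + 1 ≤ a) {ν : Measure (E d)} [IsFiniteMeasure ν]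
    {N : ℝ≥0∞} (hν : Mor (k + a) ν N) {s₁ : E d} {ρ η : ℝ} (hρ : 0 < ρ) (hη : 0 < η)
    (hs : ∀ᵐ s ∂ν, ‖s - s₁‖ ≤ 2 * ρ) : ∀ (m : ℕ) (L : List (E d)), L.length + m ≤ n + 1 →
      ∫⁻ X in Set.univ.pi fun _ => slab η L, ν (near η s₁ X) ^ m ∂rows d k ≤
        stdGaussian (E d) (slab η L) ^ k *
          (ENNReal.ofReal η ^ k * (8 ^ (k + a) * N * ENNReal.ofReal ρ ^ a)) ^ m := by
  intro m
  induction m with
  | zero =>
    intro L _
    simp [Measure.pi_pi]
  | succ m ih =>
    intro L hL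
    have h1 := slab_integral_le ha hν hρ hη hs L (by omega)
    generalize ENNReal.ofReal η ^ k * (8 ^ (k + a) * N * ENNReal.ofReal ρ ^ a) = c at h1 ih ⊢
    rw [moment_step]
    calc _ ≤ ∫⁻ s, stdGaussian (E d) (slab η ((s - s₁) :: L)) ^ k * c ^ m ∂ν :=
          lintegral_mono fun s => ih ((s - s₁) :: L) (by rw [List.length_cons]; omega)
      _ = (∫⁻ s, stdGaussian (E d) (slab η ((s - s₁) :: L)) ^ k ∂ν) * c ^ m :=
          lintegral_mul_const _ ((measurable_slab_cons η s₁ L).pow_const k)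
      _ ≤ stdGaussian (E d) (slab η L) ^ k * c * c ^ m := by gcongr
      _ = _ := by ring

end Vale.Agent.P309
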